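import Vale.Agent.Lib.P065_helper23.Lines

/-!
# P065 (pseudoline arrangements): keys with a band, and the swap of two bundles
-/

namespace Vale.Agent.Lib.P065_helper23

theorem mk4_zero_le {a a' b c d : ℕ} (h : a ≤ a') : mk4 a 0 0 0 ≤ mk4 a' b c d := by
  refine not_lt.1 ?_
  rw [mk4_lt]
  omega

/-- A key that is standard outside the band of two bundles `A`, `Q`. -/
structure Banded (A Q p : ℕ) (i x : ℕ → ℕ) (k : Line → K4) : Prop where
  out : ∀ ℓ : Line, ℓ.1 ≠ A → ℓ.1 ≠ Q → k ℓ = mk4 (i ℓ.1) 0 (val (x ℓ.1) ℓ) ℓ.2.1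
  lo : ∀ ℓ : Line, ℓ.1 = A ∨ ℓ.1 = Q → mk4 p 0 0 0 ≤ k ℓ
  hi : ∀ ℓ : Line, ℓ.1 = A ∨ ℓ.1 = Q → k ℓ < mk4 (p + 2) 0 0 0

theorem band_mono {A Q p : ℕ} {i x : ℕ → ℕ} {k k' : Line → K4}
    (hk : Banded A Q p i x k) (hk' : Banded A Q p i x k')
    (hne : ∀ C, C ≠ A → C ≠ Q → i C ≠ p ∧ i C ≠ p + 1) {a b : Line} (hab : k a < k b)
    (hin : (a.1 = A ∨ a.1 = Q) → (b.1 = A ∨ b.1 = Q) → k' a < k' b) : k' a < k' b := by
  by_cases ha : a.1 = A ∨ a.1 = Q
  · by_cases hb : b.1 = A ∨ b.1 = Q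
    · exact hin ha hb
    · have hb' : b.1 ≠ A ∧ b.1 ≠ Q := by tauto
      have h1 := lt_of_le_of_lt (hk.lo a ha) hab
      rw [hk.out b hb'.1 hb'.2, mk4_lt] at h1
      have h2 := hne b.1 hb'.1 hb'.2
      refine lt_of_lt_of_le (hk'.hi a ha) ?_
      rw [hk'.out b hb'.1 hb'.2]
      exact mk4_zero_le (by omega)
  · have ha' : a.1 ≠ A ∧ a.1 ≠ Q := by tauto
    by_cases hb : b.1 = A ∨ b.1 = Q
    · have h1 := lt_trans hab (hk.hi b hb)
      rw [hk.out a ha'.1 ha'.2, mk4_lt] at h1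
      have h2 := hne a.1 ha'.1 ha'.2
      refine lt_of_lt_of_le ?_ (hk'.lo b hb)
      rw [hk'.out a ha'.1 ha'.2, mk4_lt]
      omega
    · have hb' : b.1 ≠ A ∧ b.1 ≠ Q := by tauto
      rw [hk'.out a ha'.1 ha'.2, hk'.out b hb'.1 hb'.2]
      rw [hk.out a ha'.1 ha'.2, hk.out b hb'.1 hb'.2] at hab
      exact hab

section Idx

variable {pre suf : List ℕ} {a b : ℕ}

theorem idx_a (h : (pre ++ a :: b :: suf).Nodup) : (pre ++ a :: b :: suf).idxOf a = pre.length := by
  have h1 : a ∉ pre := fun ha => (List.nodup_append.1 h).2.2 a ha a (by simp) rfl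
  rw [List.idxOf_append_of_notMem h1, List.idxOf_cons_self]
  rfl

theorem ne_of_nodup (h : (pre ++ a :: b :: suf).Nodup) : a ≠ b := by
  have h2 := (List.nodup_append.1 h).2.1
  have := (List.nodup_cons.1 h2).1
  intro hab
  apply this
  rw [hab]
  simp

theorem idx_b (h : (pre ++ a :: b :: suf).Nodup) :
    (pre ++ a :: b :: suf).idxOf b = pre.length + 1 := by
  have h1 : b ∉ pre := fun ha => (List.nodup_append.1 h).2.2 b ha b (by simp) rfl
  rw [List.idxOf_append_of_notMem h1, List.idxOf_cons_ne _ (ne_of_nodup h), List.idxOf_cons_self]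

theorem nodup_swap (h : (pre ++ a :: b :: suf).Nodup) : (pre ++ b :: a :: suf).Nodup :=
  (((List.Perm.swap a b suf).append_left pre).nodup_iff).2 h

theorem mem_swap (C : ℕ) : C ∈ pre ++ b :: a :: suf ↔ C ∈ pre ++ a :: b :: suf := by
  simp only [List.mem_append, List.mem_cons]
  tauto

theorem idx_swap {C : ℕ} (hCa : C ≠ a) (hCb : C ≠ b) :
    (pre ++ b :: a :: suf).idxOf C = (pre ++ a :: b :: suf).idxOf C := by
  by_cases hC : C ∈ pre
  · rw [List.idxOf_append_of_mem hC, List.idxOf_append_of_mem hC]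
  · rw [List.idxOf_append_of_notMem hC, List.idxOf_append_of_notMem hC,
      List.idxOf_cons_ne _ (Ne.symm hCa), List.idxOf_cons_ne _ (Ne.symm hCb),
      List.idxOf_cons_ne _ (Ne.symm hCa), List.idxOf_cons_ne _ (Ne.symm hCb)]

theorem idx_ne (h : (pre ++ a :: b :: suf).Nodup) {C : ℕ} (hCa : C ≠ a) (hCb : C ≠ b) :
    (pre ++ a :: b :: suf).idxOf C ≠ pre.length ∧ (pre ++ a :: b :: suf).idxOf C ≠ pre.length + 1 := by
  by_cases hC : C ∈ pre ++ a :: b :: suf
  · constructor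
    · intro he
      rw [← idx_a h] at he
      exact hCa ((List.idxOf_inj hC).1 he)
    · intro he
      rw [← idx_b h] at he
      exact hCb ((List.idxOf_inj hC).1 he)
  · rw [List.idxOf_of_notMem hC]
    simp only [List.length_append, List.length_cons]
    omega

/-- Positions in `pre` are small. -/
theorem idx_lt_iff {C : ℕ} :
    (pre ++ a :: b :: suf).idxOf C < pre.length ↔ C ∈ pre := by
  by_cases hp : C ∈ pre
  · rw [List.idxOf_append_of_mem hp]
    exact ⟨fun _ => hp, fun _ => List.idxOf_lt_length_iff.2 hp⟩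
  · rw [List.idxOf_append_of_notMem hp]
    constructor
    · intro h'
      omega
    · intro h'
      exact absurd h' hp

end Idx

theorem banded_keyS {pre suf : List ℕ} {a b : ℕ} (h : (pre ++ a :: b :: suf).Nodup) (x : ℕ → ℕ) :
    Banded a b pre.length (pre ++ a :: b :: suf).idxOf x (keyS (pre ++ a :: b :: suf) x) where
  out ℓ _ _ := rfl
  lo ℓ hℓ := by
    unfold keyS
    rcases hℓ with hℓ | hℓ
    · rw [hℓ, idx_a h]
      exact mk4_zero_le le_rfl
    · rw [hℓ, idx_b h]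
      exact mk4_zero_le (by omega)
  hi ℓ hℓ := by
    unfold keyS
    rcases hℓ with hℓ | hℓ
    · rw [hℓ, idx_a h, mk4_lt]
      omega
    · rw [hℓ, idx_b h, mk4_lt]
      omega

theorem banded_keyS' {pre suf : List ℕ} {a b : ℕ} (h : (pre ++ a :: b :: suf).Nodup) {x x' : ℕ → ℕ}
    (hx : ∀ C, C ≠ a → C ≠ b → x' C = x C) :
    Banded a b pre.length (pre ++ a :: b :: suf).idxOf x (keyS (pre ++ b :: a :: suf) x') where
  out ℓ h1 h2 := by
    unfold keyS
    rw [idx_swap h1 h2, hx _ h1 h2]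
  lo ℓ hℓ := by
    have h' := nodup_swap h
    unfold keyS
    rcases hℓ with hℓ | hℓ
    · rw [hℓ, idx_b h']
      exact mk4_zero_le (by omega)
    · rw [hℓ, idx_a h']
      exact mk4_zero_le le_rfl
  hi ℓ hℓ := by
    have h' := nodup_swap h
    unfold keyS
    rcases hℓ with hℓ | hℓ
    · rw [hℓ, idx_b h', mk4_lt]
      omega
    · rw [hℓ, idx_a h', mk4_lt]
      omega

theorem rL_total {n t B : ℕ} {x y : Line} (hx : x ∈ allLines n t B) (hy : y ∈ allLines n t B)
    (hne : x ≠ y) : rL t B x y ∨ rL t B y x := by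
  rw [mem_allLines] at hx hy
  unfold rL
  have : lab t B x ≠ lab t B y := fun h => hne (lab_inj hx.2.1 hx.2.2 hy.2.1 hy.2.2 h)
  omega

/-- An unmarked step of the outer arrangement. -/
theorem swap_run {n t B g : ℕ} {pre suf : List ℕ} {a b : ℕ} (x : ℕ → ℕ) (hab : a < b)
    (h : (pre ++ a :: b :: suf).Nodup) (hmem : ∀ C, C < n → C ∈ pre ++ a :: b :: suf) :
    Reach (rL t B) g (Sst n t B (pre ++ a :: b :: suf) x) (Sst n t B (pre ++ b :: a :: suf) x) [] := by
  refine filler (keyS (pre ++ a :: b :: suf) x) (keyS (pre ++ b :: a :: suf) x)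
    (pairwise_Sst x hmem) (pairwise_Sst x fun C hC => (mem_swap C).2 (hmem C hC))
    (fun ℓ => by rw [mem_Sst, mem_Sst]) ?_ ?_
  · intro u hu w hw hne
    rw [mem_Sst] at hu hw
    exact rL_total hu hw hne
  · intro u hu w hw hr hk
    rw [mem_Sst, mem_allLines] at hu hw
    refine band_mono (banded_keyS h x) (banded_keyS' h fun _ _ _ => rfl) (fun C h1 h2 => idx_ne h h1 h2)
      hk ?_
    intro hu' hw'
    have h' := nodup_swap h
    rcases hu' with hu' | hu' <;> rcases hw' with hw' | hw'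
    · unfold keyS at hk ⊢
      rw [hu', hw', idx_a h, mk4_lt] at hk
      rw [hu', hw', idx_b h', mk4_lt]
      omega
    · exfalso
      have : lab t B u < lab t B w := lab_lt_of_C hu.2.1 hu.2.2 (by omega)
      unfold rL at hr
      omega
    · unfold keyS
      rw [hu', hw', idx_a h', idx_b h', mk4_lt]
      omega
    · unfold keyS at hk ⊢
      rw [hu', hw', idx_b h, mk4_lt] at hk
      rw [hu', hw', idx_a h', mk4_lt]
      omega

end Vale.Agent.Lib.P065_helper23
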