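import Vale.Agent.Lib.P065_helper23.Pad

/-!
# P065 (pseudoline arrangements): all even sizes, all exponents below one
-/

namespace Vale.Agent.Lib.P065_helper23

/-- The parameters of the recursion with a lag. -/
theorem params {β : ℝ} (hβ : β < 1) : ∃ (j : ℕ) (x y : ℝ), 1 < x ∧ 1 < y ∧
    x ^ j * (x - 1) ≤ 1 ∧ 2 ≤ y ^ j * (y - 1) ∧ y ^ β < x := by
  set θ : ℝ := max ((1 + β) / 2) (1 / 2) with hθdef
  have hθ0 : 1 / 2 ≤ θ := le_max_right _ _
  have hθβ : β < θ := lt_of_lt_of_le (by linarith) (le_max_left _ _)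
  have hθ1 : θ < 1 := max_lt (by linarith) (by norm_num)
  have hθpos : 0 < θ := by linarith
  have hgap : 0 < 1 - θ := by linarith
  -- the size `A`
  obtain ⟨A, hA⟩ := exists_nat_ge ((4 : ℝ) ^ (1 / (1 - θ)) + 1)
  have hA1 : (1 : ℝ) ≤ A := by
    have : (0 : ℝ) ≤ (4 : ℝ) ^ (1 / (1 - θ)) := by positivity
    linarith
  have hA0 : (0 : ℝ) < A := by linarith
  have hA4 : 4 ≤ (A : ℝ) ^ (1 - θ) := by
    have h1 : (4 : ℝ) ^ (1 / (1 - θ)) ≤ A := by linarith
    have h2 := Real.rpow_le_rpow (by positivity) h1 hgap.le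
    rw [← Real.rpow_mul (by norm_num), one_div, inv_mul_cancel₀ hgap.ne', Real.rpow_one] at h2
    exact h2
  set y : ℝ := 1 + 1 / A with hy
  have hy1 : 1 < y := by
    have : 0 < 1 / (A : ℝ) := by positivity
    linarith
  have hy2 : y ≤ 2 := by
    have : 1 / (A : ℝ) ≤ 1 := by
      rw [div_le_one hA0]
      exact hA1
    linarith
  have hy0 : 0 < y := by linarith
  have hex : ∃ j : ℕ, 2 * (A : ℝ) ≤ y ^ j := by
    obtain ⟨j, hj⟩ := pow_unbounded_of_one_lt (2 * (A : ℝ)) hy1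
    exact ⟨j, hj.le⟩
  classical
  set j := Nat.find hex with hjdef
  have hj1 : 2 * (A : ℝ) ≤ y ^ j := Nat.find_spec hex
  have hj4 : y ^ j ≤ 4 * A := by
    rcases Nat.eq_zero_or_pos j with h0 | hpos
    · exfalso
      rw [h0, pow_zero] at hj1
      linarith
    · have h2 : ¬ 2 * (A : ℝ) ≤ y ^ (j - 1) := Nat.find_min hex (by omega)
      have h3 : y ^ j = y ^ (j - 1) * y := by
        rw [← pow_succ]
        congr 1
        omega
      rw [h3]
      push Not at h2
      have h4 : 0 ≤ y ^ (j - 1) := by positivity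
      nlinarith
  set x : ℝ := y ^ θ with hx
  have hx1 : 1 < x := Real.one_lt_rpow hy1 hθpos
  refine ⟨j, x, y, hx1, hy1, ?_, ?_, Real.rpow_lt_rpow_of_exponent_lt hy1 hθβ⟩
  · -- the first inequality
    have hxj : x ^ j = (y ^ j) ^ θ := by
      rw [hx, ← Real.rpow_natCast, ← Real.rpow_mul hy0.le, ← Real.rpow_natCast y j,
        ← Real.rpow_mul hy0.le, mul_comm]
    have hbern : x ≤ 1 + θ * (1 / A) := by
      rw [hx, hy]
      exact rpow_one_add_le_one_add_mul_self (by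
        have : 0 < 1 / (A : ℝ) := by positivity
        linarith) hθpos.le hθ1.le
    have hxm : x - 1 ≤ 1 / A := by
      have h1 : θ * (1 / (A : ℝ)) ≤ 1 * (1 / A) :=
        mul_le_mul_of_nonneg_right hθ1.le (by positivity)
      linarith
    have h4θ : (4 * (A : ℝ)) ^ θ ≤ 4 * (A : ℝ) ^ θ := by
      rw [Real.mul_rpow (by norm_num) hA0.le]
      have : (4 : ℝ) ^ θ ≤ 4 ^ (1 : ℝ) := Real.rpow_le_rpow_of_exponent_le (by norm_num) hθ1.le
      rw [Real.rpow_one] at this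
      exact mul_le_mul_of_nonneg_right this (by positivity)
    have hxj4 : x ^ j ≤ 4 * (A : ℝ) ^ θ := by
      rw [hxj]
      exact le_trans (Real.rpow_le_rpow (by positivity) hj4 hθpos.le) h4θ
    have hx0 : 0 ≤ x - 1 := by linarith
    have hAθ : (A : ℝ) ^ θ * (A : ℝ) ^ (1 - θ) = A := by
      rw [← Real.rpow_add hA0]
      simp
    calc x ^ j * (x - 1) ≤ (4 * (A : ℝ) ^ θ) * (1 / A) :=
          mul_le_mul hxj4 hxm hx0 (by positivity)
      _ ≤ ((A : ℝ) ^ (1 - θ) * (A : ℝ) ^ θ) * (1 / A) :=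
          mul_le_mul_of_nonneg_right (mul_le_mul_of_nonneg_right hA4 (by positivity)) (by positivity)
      _ = 1 := by
          rw [mul_comm ((A : ℝ) ^ (1 - θ)), hAθ]
          field_simp
  · -- the second inequality
    have h5 : y - 1 = 1 / A := by rw [hy]; ring
    rw [h5]
    calc (2 : ℝ) = 2 * A * (1 / A) := by field_simp
      _ ≤ y ^ j * (1 / A) := mul_le_mul_of_nonneg_right hj1 (by positivity)

theorem gS_lower {x : ℝ} {j : ℕ} (hx1 : 1 < x) (hx : x ^ j * (x - 1) ≤ 1) (k : ℕ) :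
    x ^ k ≤ (gS j 1 k : ℝ) * x ^ j := by
  induction k using Nat.strong_induction_on with
  | _ k ih =>
    by_cases hk : k ≤ j
    · rw [gS_le hk, Nat.cast_one, one_mul]
      exact pow_le_pow_right₀ hx1.le hk
    · obtain ⟨k', rfl⟩ : ∃ k', k = k' + 1 := ⟨k - 1, by omega⟩
      have hj : j ≤ k' := by omega
      have h1 := ih k' (by omega)
      have h2 := ih (k' - j) (by omega)
      rw [gS_step hj, one_mul]
      push_cast
      have e : x ^ (k' + 1) = x ^ (k' - j) * (x ^ j * (x - 1)) + x ^ k' := by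
        have : x ^ k' = x ^ (k' - j) * x ^ j := by
          rw [← pow_add, Nat.sub_add_cancel hj]
        rw [pow_succ, this]
        ring
      have h3 : 0 ≤ x ^ (k' - j) := by positivity
      have h4 : x ^ (k' - j) * (x ^ j * (x - 1)) ≤ x ^ (k' - j) * 1 :=
        mul_le_mul_of_nonneg_left hx h3
      rw [e]
      nlinarith

theorem gS_upper {y : ℝ} {j : ℕ} (hy1 : 1 < y) (hy : 2 ≤ y ^ j * (y - 1)) (k : ℕ) :
    (gS j 2 k : ℝ) ≤ y ^ k := by
  induction k using Nat.strong_induction_on with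
  | _ k ih =>
    by_cases hk : k ≤ j
    · rw [gS_le hk, Nat.cast_one]
      exact one_le_pow₀ hy1.le
    · obtain ⟨k', rfl⟩ : ∃ k', k = k' + 1 := ⟨k - 1, by omega⟩
      have hj : j ≤ k' := by omega
      have h1 := ih k' (by omega)
      have h2 := ih (k' - j) (by omega)
      rw [gS_step hj]
      push_cast
      have e : y ^ (k' + 1) = y ^ (k' - j) * (y ^ j * (y - 1)) + y ^ k' := by
        have : y ^ k' = y ^ (k' - j) * y ^ j := by
          rw [← pow_add, Nat.sub_add_cancel hj]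
        rw [pow_succ, this]
        ring
      have h3 : 0 ≤ y ^ (k' - j) := by positivity
      have h4 : y ^ (k' - j) * 2 ≤ y ^ (k' - j) * (y ^ j * (y - 1)) :=
        mul_le_mul_of_nonneg_left hy h3
      rw [e]
      nlinarith

theorem gS_two_ge (j i : ℕ) : i + 1 ≤ gS j 2 (j + i) := by
  induction i with
  | zero => exact gS_pos _ _ _
  | succ i ih =>
    have e : j + (i + 1) = j + i + 1 := rfl
    rw [e, gS_step (by omega)]
    have := gS_pos j 2 (j + i - j)
    omega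

/-- **Main theorem**: for every exponent below one, all large even `N`. -/
theorem main_all {β : ℝ} (hβ : β < 1) : ∃ N0 : ℕ, ∀ N : ℕ, N0 ≤ N → Even N → ∃ w : List ℕ,
    runW (List.range N) w = some (List.range N).reverse ∧
    (N : ℝ) * Real.exp ((Real.log N) ^ β) ≤ (w.count (N / 2 - 1) : ℝ) := by
  set β₀ : ℝ := max β (1 / 2) with hβ₀def
  have hβ₀1 : β₀ < 1 := max_lt hβ (by norm_num)
  have hβ₀0 : 0 < β₀ := lt_of_lt_of_le (by norm_num) (le_max_right _ _)
  obtain ⟨j, x, y, hx1, hy1, hx, hy, hq⟩ := params hβ₀1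
  have hx0 : 0 < x := by linarith
  have hy0 : 0 < y := by linarith
  set q : ℝ := y ^ β₀ with hqdef
  have hq1 : 1 < q := Real.one_lt_rpow hy1 hβ₀0
  have hq0 : 0 < q := by linarith
  have hc : 0 < Real.log (135 / 128) := Real.log_pos (by norm_num)
  set c := Real.log (135 / 128) with hcdef
  have he0 : 1 < e0 j := by
    unfold e0
    have : 1 ≤ 9 ^ (2 ^ j) := Nat.one_le_pow _ _ (by norm_num)
    omega
  have hE : 0 < Real.log (e0 j) := Real.log_pos (by exact_mod_cast he0)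
  set E := Real.log (e0 j) with hEdef
  have hxj : 0 < x ^ j := by positivity
  set C₁ : ℝ := (E * y) ^ β₀ with hC₁
  have hC₁0 : 0 < C₁ := by positivity
  set C₂ : ℝ := c / x ^ j with hC₂
  have hC₂0 : 0 < C₂ := by positivity
  have hlog8 : 0 < Real.log 8 := Real.log_pos (by norm_num)
  -- the threshold
  have hratio : 1 < x / q := by rwa [one_lt_div hq0]
  obtain ⟨k₁, hk₁⟩ := pow_unbounded_of_one_lt (2 * C₁ / C₂) hratio
  obtain ⟨k₂, hk₂⟩ := pow_unbounded_of_one_lt (2 * Real.log 8 / C₂) hx1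
  set k₀ := max k₁ k₂ with hk₀
  have hdom : ∀ k, k₀ ≤ k → C₁ * q ^ k + Real.log 8 ≤ C₂ * x ^ k := by
    intro k hk
    have h1 : (x / q) ^ k₁ ≤ (x / q) ^ k :=
      pow_le_pow_right₀ hratio.le (le_trans (le_max_left _ _) hk)
    have h2 : x ^ k₂ ≤ x ^ k := pow_le_pow_right₀ hx1.le (le_trans (le_max_right _ _) hk)
    have h3 : 2 * C₁ / C₂ ≤ (x / q) ^ k := le_trans hk₁.le h1
    have h4 : 2 * Real.log 8 / C₂ ≤ x ^ k := le_trans hk₂.le h2
    rw [div_le_iff₀ hC₂0] at h3 h4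
    have h5 : x ^ k = (x / q) ^ k * q ^ k := by
      rw [← mul_pow, div_mul_cancel₀ _ hq0.ne']
    have h6 : 0 < q ^ k := by positivity
    have h7 : 2 * C₁ * q ^ k ≤ C₂ * x ^ k := by
      rw [h5]
      calc 2 * C₁ * q ^ k ≤ ((x / q) ^ k * C₂) * q ^ k := mul_le_mul_of_nonneg_right h3 h6.le
        _ = _ := by ring
    nlinarith
  refine ⟨e0 j ^ gS j 2 k₀ + 3, ?_⟩
  intro N hN hNe
  have hN3 : 3 ≤ N := by omega
  have hNU : e0 j ^ gS j 2 k₀ ≤ N := by omega
  -- the index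
  have hex : ∃ k', N < e0 j ^ gS j 2 k' := by
    refine ⟨j + N, ?_⟩
    have h1 : N + 1 ≤ gS j 2 (j + N) := gS_two_ge j N
    have h2 : gS j 2 (j + N) < e0 j ^ gS j 2 (j + N) := Nat.lt_pow_self he0
    omega
  classical
  set k' := Nat.find hex with hk'def
  have hk'1 : N < e0 j ^ gS j 2 k' := Nat.find_spec hex
  have hk'pos : k₀ < k' := by
    by_contra hcon
    have h1 : gS j 2 k' ≤ gS j 2 k₀ := gS_mono j 2 (by omega)
    have h2 : e0 j ^ gS j 2 k' ≤ e0 j ^ gS j 2 k₀ := Nat.pow_le_pow_right (by omega) h1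
    omega
  obtain ⟨k, hk⟩ : ∃ k, k' = k + 1 := ⟨k' - 1, by omega⟩
  have hk0 : k₀ ≤ k := by omega
  have hk'2 : ¬ N < e0 j ^ gS j 2 k := Nat.find_min hex (by omega)
  rw [hk] at hk'1
  obtain ⟨n, m, d, h1, h2, h3, h4, h5, h6⟩ := lag_seq j k
  have hd : 1 ≤ d := by
    rw [h4]
    exact Nat.one_le_pow _ _ (by norm_num)
  have hnd : 4 * n * d ≤ N := by
    have h7 : d ≤ d ^ (2 ^ j) := Nat.le_self_pow (by positivity) d
    have h8 : 4 * n * d ≤ 4 * n * d ^ (2 ^ j) := Nat.mul_le_mul_left _ h7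
    omega
  obtain ⟨w, hw, hcount⟩ := blow h1 h2 h3 hd hnd hNe
  refine ⟨w, hw, le_trans ?_ hcount⟩
  -- now only real numbers
  have hNR : (3 : ℝ) ≤ N := by exact_mod_cast hN3
  have hN0 : (0 : ℝ) < N := by linarith
  have hlogN1 : 1 ≤ Real.log N := by
    rw [Real.le_log_iff_exp_le hN0]
    have := Real.exp_one_lt_d9
    linarith
  have hlogN : Real.log N ≤ E * y * y ^ k := by
    have h7 : (N : ℝ) ≤ ((e0 j : ℝ)) ^ gS j 2 (k + 1) := by
      have : N ≤ e0 j ^ gS j 2 (k + 1) := hk'1.le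
      exact_mod_cast this
    have h8 := Real.log_le_log hN0 h7
    rw [Real.log_pow] at h8
    have h9 := gS_upper hy1 hy (k + 1)
    have h10 : ((gS j 2 (k + 1) : ℕ) : ℝ) * E ≤ y ^ (k + 1) * E :=
      mul_le_mul_of_nonneg_right h9 hE.le
    calc Real.log N ≤ ((gS j 2 (k + 1) : ℕ) : ℝ) * E := h8
      _ ≤ y ^ (k + 1) * E := h10
      _ = E * y * y ^ k := by rw [pow_succ]; ring
  have hbeta : (Real.log N) ^ β ≤ C₁ * q ^ k := by
    have h7 : (Real.log N) ^ β ≤ (Real.log N) ^ β₀ :=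
      Real.rpow_le_rpow_of_exponent_le hlogN1 (le_max_left _ _)
    have h8 : (Real.log N) ^ β₀ ≤ (E * y * y ^ k) ^ β₀ :=
      Real.rpow_le_rpow (by linarith) hlogN hβ₀0.le
    have h9 : (E * y * y ^ k) ^ β₀ = C₁ * q ^ k := by
      rw [Real.mul_rpow (by positivity) (by positivity), hC₁, hqdef,
        ← Real.rpow_natCast y k, ← Real.rpow_mul hy0.le, ← Real.rpow_natCast (y ^ β₀) k,
        ← Real.rpow_mul hy0.le, mul_comm β₀]
    linarith
  have hdomk := hdom k hk0
  have hak : C₂ * x ^ k ≤ c * (gS j 1 k : ℝ) := by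
    have h7 := gS_lower hx1 hx k
    rw [hC₂, div_mul_eq_mul_div, div_le_iff₀ hxj]
    calc c * x ^ k ≤ c * ((gS j 1 k : ℝ) * x ^ j) := mul_le_mul_of_nonneg_left h7 hc.le
      _ = _ := by ring
  have hexp : Real.exp ((Real.log N) ^ β) * 8 ≤ (135 / 128 : ℝ) ^ gS j 1 k := by
    have h7 : (Real.log N) ^ β + Real.log 8 ≤ (gS j 1 k : ℝ) * c := by linarith
    have h8 := Real.exp_le_exp.2 h7
    rw [Real.exp_add, Real.exp_log (by norm_num), Real.exp_nat_mul, hcdef,
      Real.exp_log (by norm_num)] at h8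
    exact h8
  have hnR : (0 : ℝ) < n := by
    have : 0 < n := by omega
    exact_mod_cast this
  have hm0 : (0 : ℝ) ≤ m := Nat.cast_nonneg _
  rw [le_div_iff₀ (by positivity)]
  have h9 : (n : ℝ) * (Real.exp ((Real.log N) ^ β) * 8) ≤ (15 / 16 : ℝ) * m :=
    le_trans (mul_le_mul_of_nonneg_left hexp hnR.le) h6
  have h10 : (n : ℝ) * (Real.exp ((Real.log N) ^ β) * 8) ≤ m := by linarith
  have h11 := mul_le_mul_of_nonneg_left h10 hN0.le
  calc (N : ℝ) * Real.exp ((Real.log N) ^ β) * (8 * n) =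
        N * (n * (Real.exp ((Real.log N) ^ β) * 8)) := by ring
    _ ≤ N * m := h11
    _ = m * N := by ring

end Vale.Agent.Lib.P065_helper23
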