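import Vale.Agent.Lib.P065_helper23.Final

/-!
# P065 (pseudoline arrangements): a fixed position in many lines
-/

namespace Vale.Agent.Lib.P065_helper23

/-- A word gives a run with at least as many marks as letters `g`. -/
theorem Reach.of_word (g : ℕ) (w : List ℕ) : ∀ l l' : List ℕ, runW l w = some l' →
    ∃ ms, Reach (· < ·) g l l' ms ∧ w.count g ≤ ms.length := by
  induction w with
  | nil =>
    intro l l' h
    simp only [runW, Option.some.injEq] at h
    subst h
    exact ⟨[], Reach.refl _, by simp⟩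
  | cons p w ih =>
    intro l l' h
    simp only [runW, Option.bind_eq_some_iff] at h
    obtain ⟨l₂, h1, h2⟩ := h
    obtain ⟨ms, h3, h4⟩ := ih _ _ h2
    unfold stepW at h1
    split at h1
    · rename_i a b suf hdrop
      by_cases hab : a < b
      swap
      · rw [if_neg hab] at h1
        simp at h1
      rw [if_pos hab, Option.some.injEq] at h1
      subst h1
      have hl : l = l.take p ++ a :: b :: suf := by
        conv_lhs => rw [← List.take_append_drop p l, hdrop]
      have hlen : (l.take p).length = p := by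
        rw [List.length_take]
        have : (l.drop p).length = 2 + suf.length := by
          rw [hdrop]
          simp only [List.length_cons]
          omega
        rw [List.length_drop] at this
        omega
      by_cases hp : p = g
      · refine ⟨(a, b) :: ms, ?_, ?_⟩
        · rw [hl]
          exact Reach.mark _ _ _ _ _ _ hab (by rw [hlen, hp]) h3
        · subst hp
          simp only [List.length_cons, List.count_cons_self]
          omega
      · refine ⟨ms, ?_, ?_⟩
        · rw [hl]
          exact Reach.swap _ _ _ _ _ _ hab h3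
        · rw [List.count_cons_of_ne hp]
          exact h4
    · simp at h1

/-- A new line at the far end. -/
theorem pad_right {g N : ℕ} {ms : List (ℕ × ℕ)}
    (h : Reach (· < ·) g (List.range N) (List.range N).reverse ms) :
    ∃ ms', Reach (· < ·) g (List.range (N + 1)) (List.range (N + 1)).reverse ms' ∧
      ms.length ≤ ms'.length := by
  have h1 := Reach.lift (r' := (· < ·)) (g' := g) id h (fun a _ b _ hab => hab) [] [N] (by simp)
  simp only [List.map_id, List.nil_append] at h1
  rw [← List.range_succ] at h1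
  have hperm : ((List.range N).reverse ++ [N]).Perm (List.range (N + 1)) := by
    rw [List.range_succ]
    exact List.Perm.append_right _ (List.reverse_perm _)
  have h2 := h1.trans (to_top (g := g) (N := N + 1) (hperm.nodup_iff.2 List.nodup_range) (fun a => by
    rw [hperm.mem_iff, List.mem_range]))
  exact ⟨_, h2, by simp⟩

theorem pad_right_many {g N : ℕ} {ms : List (ℕ × ℕ)}
    (h : Reach (· < ·) g (List.range N) (List.range N).reverse ms) (i : ℕ) :
    ∃ ms', Reach (· < ·) g (List.range (N + i)) (List.range (N + i)).reverse ms' ∧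
      ms.length ≤ ms'.length := by
  induction i with
  | zero => exact ⟨ms, h, le_rfl⟩
  | succ i ih =>
    obtain ⟨ms', h1, h2⟩ := ih
    obtain ⟨ms'', h3, h4⟩ := pad_right h1
    exact ⟨ms'', h3, le_trans h2 h4⟩

section Copies

variable (s : ℕ)

/-- Key of a label while the bundle `D` is at the start. -/
def keyK (D : ℕ) (σ : Bool) (a : ℕ) : K4 :=
  if a / s < D then mk4 1 (D - 1 - a / s) (s - 1 - a % s) 0
  else if a / s = D then mk4 0 0 (if σ then s - 1 - a % s else a % s) 0
  else mk4 2 (a / s) (a % s) 0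

/-- The labels not in the bundle `D`, in their order. -/
noncomputable def restK (N D : ℕ) : List ℕ :=
  isort (keyK s D false) ((List.range N).filter fun a => a / s ≠ D)

variable {s}

theorem keyK_inj {D : ℕ} {σ : Bool} {a b : ℕ} (hs : 0 < s) (h : keyK s D σ a = keyK s D σ b) : a = b := by
  have ha := Nat.mod_lt a hs
  have hb := Nat.mod_lt b hs
  have key : a / s = b / s ∧ a % s = b % s := by
    unfold keyK at h
    split_ifs at h <;> (obtain ⟨h1, h2, h3, h4⟩ := mk4_inj h; omega)
  rw [← Nat.div_add_mod a s, ← Nat.div_add_mod b s, key.1, key.2]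

theorem mem_restK {N D a : ℕ} : a ∈ restK s N D ↔ a < N ∧ a / s ≠ D := by
  unfold restK
  rw [(isort_perm _ _).mem_iff, List.mem_filter, List.mem_range]
  simp

theorem keyK_rest_lo {D a : ℕ} {σ : Bool} (h : a / s ≠ D) : mk4 1 0 0 0 ≤ keyK s D σ a := by
  unfold keyK
  rw [if_neg' h]
  split_ifs
  · refine not_lt.1 ?_
    rw [mk4_lt]
    omega
  · refine not_lt.1 ?_
    rw [mk4_lt]
    omega

theorem keyK_ind {D a : ℕ} {σ τ : Bool} (h : a / s ≠ D) : keyK s D σ a = keyK s D τ a := by
  unfold keyK
  rw [if_neg' h, if_neg' h]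

theorem pairwise_restK (hs : 0 < s) (N D : ℕ) (σ : Bool) :
    (restK s N D).Pairwise fun a b => keyK s D σ a < keyK s D σ b := by
  have h := isort_pairwise (keyK s D false) ((List.range N).filter fun a => a / s ≠ D)
    (List.nodup_range.filter _) (fun x _ y _ hxy => keyK_inj hs hxy)
  refine h.imp_of_mem ?_
  intro a b ha hb hab
  have ha' := (mem_restK.1 ha).2
  have hb' := (mem_restK.1 hb).2
  rwa [keyK_ind ha' (τ := false), keyK_ind hb' (τ := false)]

/-- The bundle `D`. -/
def phiK (s D i : ℕ) : ℕ := D * s + i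

theorem phiK_div {D i : ℕ} (hi : i < s) : phiK s D i / s = D := by
  unfold phiK
  rw [Nat.add_comm, Nat.add_mul_div_right _ _ (by omega), Nat.div_eq_of_lt hi]
  omega

theorem phiK_mod {D i : ℕ} (hi : i < s) : phiK s D i % s = i := by
  unfold phiK
  rw [Nat.add_comm, Nat.add_mul_mod_self_right, Nat.mod_eq_of_lt hi]

theorem keyK_phi_false {D i : ℕ} (hi : i < s) : keyK s D false (phiK s D i) = mk4 0 0 i 0 := by
  unfold keyK
  rw [phiK_div hi, phiK_mod hi, if_neg (lt_irrefl _), if_pos rfl]
  simp

theorem keyK_phi_true {D i : ℕ} (hi : i < s) : keyK s D true (phiK s D i) = mk4 0 0 (s - 1 - i) 0 := by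
  unfold keyK
  rw [phiK_div hi, phiK_mod hi, if_neg (lt_irrefl _), if_pos rfl]
  simp

variable (s)

/-- The state with the bundle `D` at the start, not yet worked on. -/
noncomputable def ZmK (N D : ℕ) : List ℕ := (List.range s).map (phiK s D) ++ restK s N D

/-- The state with the bundle `D` at the start, worked on. -/
noncomputable def ZpK (N D : ℕ) : List ℕ := (List.range s).reverse.map (phiK s D) ++ restK s N D

variable {s}

theorem mem_ZmK {N D : ℕ} (hs : 0 < s) (hN : (D + 1) * s ≤ N) (a : ℕ) : a ∈ ZmK s N D ↔ a < N := by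
  unfold ZmK
  rw [List.mem_append, mem_restK, List.mem_map]
  have hlt : D * s + s ≤ N := by
    have e : (D + 1) * s = D * s + s := by ring
    omega
  constructor
  · rintro (⟨i, hi, rfl⟩ | h)
    · rw [List.mem_range] at hi
      unfold phiK
      omega
    · exact h.1
  · intro ha
    by_cases h : a / s = D
    · left
      refine ⟨a % s, List.mem_range.2 (Nat.mod_lt _ hs), ?_⟩
      unfold phiK
      rw [← h, mul_comm, Nat.div_add_mod]
    · exact Or.inr ⟨ha, h⟩

theorem mem_ZpK {N D : ℕ} (hs : 0 < s) (hN : (D + 1) * s ≤ N) (a : ℕ) : a ∈ ZpK s N D ↔ a < N := by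
  rw [← mem_ZmK hs hN a]
  unfold ZmK ZpK
  simp only [List.mem_append, List.mem_map, List.mem_reverse]

theorem pairwise_ZmK (hs : 0 < s) (N D : ℕ) :
    (ZmK s N D).Pairwise fun a b => keyK s D false a < keyK s D false b := by
  unfold ZmK
  rw [List.pairwise_append]
  refine ⟨?_, pairwise_restK hs N D false, ?_⟩
  · rw [List.pairwise_map, List.pairwise_iff_getElem]
    intro i j hi hj hij
    simp only [List.length_range] at hi hj
    simp only [List.getElem_range]
    rw [keyK_phi_false hi, keyK_phi_false hj, mk4_lt]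
    omega
  · intro a ha b hb
    obtain ⟨i, hi, rfl⟩ := List.mem_map.1 ha
    rw [List.mem_range] at hi
    refine lt_of_lt_of_le ?_ (keyK_rest_lo (mem_restK.1 hb).2)
    rw [keyK_phi_false hi, mk4_lt]
    omega

theorem pairwise_ZpK (hs : 0 < s) (N D : ℕ) :
    (ZpK s N D).Pairwise fun a b => keyK s D true a < keyK s D true b := by
  unfold ZpK
  rw [List.pairwise_append]
  refine ⟨?_, pairwise_restK hs N D true, ?_⟩
  · rw [List.pairwise_map, List.pairwise_reverse, List.pairwise_iff_getElem]
    intro i j hi hj hij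
    simp only [List.length_range] at hi hj
    simp only [List.getElem_range]
    rw [keyK_phi_true hj, keyK_phi_true hi, mk4_lt]
    omega
  · intro a ha b hb
    obtain ⟨i, hi, rfl⟩ := List.mem_map.1 ha
    rw [List.mem_reverse, List.mem_range] at hi
    refine lt_of_lt_of_le ?_ (keyK_rest_lo (mem_restK.1 hb).2)
    rw [keyK_phi_true hi, mk4_lt]
    omega

/-- The order of labels, in terms of the quotient and the remainder. -/
theorem lt_cases {a b : ℕ} (hs : 0 < s) (h : a < b) :
    a / s < b / s ∨ (a / s = b / s ∧ a % s < b % s) := by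
  rcases lt_or_eq_of_le (Nat.div_le_div_right (c := s) h.le) with h1 | h1
  · exact Or.inl h1
  · refine Or.inr ⟨h1, ?_⟩
    have e1 := Nat.div_add_mod a s
    have e2 := Nat.div_add_mod b s
    rw [h1] at e1
    omega

/-- From one bundle to the next. -/
theorem next_run {N D g : ℕ} (hs : 0 < s) (hN : (D + 2) * s ≤ N) :
    Reach (· < ·) g (ZpK s N D) (ZmK s N (D + 1)) [] := by
  have hN1 : (D + 1) * s ≤ N := le_trans (Nat.mul_le_mul_right _ (by omega)) hN
  refine filler (keyK s D true) (keyK s (D + 1) false) (pairwise_ZpK hs N D) (pairwise_ZmK hs N (D + 1))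
    ?_ ?_ ?_
  · intro a
    rw [mem_ZpK hs hN1, mem_ZmK hs (by simpa [add_assoc] using hN)]
  · intro a _ b _ hne
    show a < b ∨ b < a
    omega
  · intro a _ b _ hr hk
    have hr' : b < a := hr
    have hma := Nat.mod_lt a hs
    have hmb := Nat.mod_lt b hs
    have hc := lt_cases hs hr'
    unfold keyK at hk ⊢
    simp only [Bool.false_eq_true, if_false, if_true] at hk ⊢
    split_ifs at hk ⊢ <;> rw [mk4_lt] at hk ⊢ <;> omega

/-- The copies of one arrangement, one after the other. -/
theorem copies_run {g r : ℕ} {msW : List (ℕ × ℕ)} (hs : 0 < s)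
    (hW : Reach (· < ·) g (List.range s) (List.range s).reverse msW) (D : ℕ) (hD : D < r) :
    ∃ ms, Reach (· < ·) g (ZmK s (r * s) 0) (ZpK s (r * s) D) ms ∧
      (D + 1) * msW.length ≤ ms.length := by
  have hlift : ∀ E, Reach (· < ·) g (ZmK s (r * s) E) (ZpK s (r * s) E)
      (msW.map (Prod.map (phiK s E) (phiK s E))) := by
    intro E
    have := Reach.lift (r' := (· < ·)) (g' := g) (phiK s E) hW (fun a _ b _ hab => by
      unfold phiK
      omega) [] (restK s (r * s) E) (by simp)
    simpa [ZmK, ZpK] using this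
  induction D with
  | zero =>
    exact ⟨_, hlift 0, by simp⟩
  | succ D ih =>
    obtain ⟨ms, h1, h2⟩ := ih (by omega)
    have hN : (D + 2) * s ≤ r * s := Nat.mul_le_mul_right _ (by omega)
    refine ⟨_, h1.trans ((next_run (g := g) hs hN).trans (hlift (D + 1))), ?_⟩
    simp only [List.nil_append, List.length_append, List.length_map]
    rw [add_mul, one_mul]
    omega

/-- **Copies**. -/
theorem copies {g r : ℕ} {msW : List (ℕ × ℕ)} (hs : 0 < s) (hr : 0 < r)
    (hW : Reach (· < ·) g (List.range s) (List.range s).reverse msW) :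
    ∃ ms, Reach (· < ·) g (List.range (r * s)) (List.range (r * s)).reverse ms ∧
      r * msW.length ≤ ms.length := by
  obtain ⟨ms, h1, h2⟩ := copies_run (r := r) hs hW (r - 1) (by omega)
  have hN : (0 + 1) * s ≤ r * s := Nat.mul_le_mul_right _ (by omega)
  have hN' : (r - 1 + 1) * s ≤ r * s := Nat.mul_le_mul_right _ (by omega)
  have h0 : Reach (· < ·) g (List.range (r * s)) (ZmK s (r * s) 0) [] := by
    refine filler (fun a => a) (keyK s 0 false) List.pairwise_lt_range (pairwise_ZmK hs _ 0) ?_ ?_ ?_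
    · intro a
      rw [List.mem_range, mem_ZmK hs hN]
    · intro a _ b _ hne
      show a < b ∨ b < a
      omega
    · intro a _ b _ hr' hk
      exfalso
      have h3 : b < a := hr'
      have h4 : a < b := hk
      omega
  have hnd : (ZpK s (r * s) (r - 1)).Nodup :=
    (pairwise_ZpK hs _ (r - 1)).imp fun h => ne_of_apply_ne (keyK s (r - 1) true) (ne_of_lt h)
  have h3 := to_top (g := g) (N := r * s) hnd (mem_ZpK hs hN')
  refine ⟨_, h0.trans (h1.trans h3), ?_⟩
  simp only [List.nil_append, List.length_append, List.length_nil, add_zero]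
  have e : r - 1 + 1 = r := by omega
  rwa [e] at h2

end Copies

/-- **Main theorem for a fixed position**: for all large `k` and all `n ≥ 2k`. -/
theorem main_kset {β : ℝ} (hβ : β < 1) : ∃ K0 : ℕ, ∀ k n : ℕ, K0 ≤ k → 2 * k ≤ n → ∃ w : List ℕ,
    runW (List.range n) w = some (List.range n).reverse ∧
    (n : ℝ) * Real.exp ((Real.log k) ^ β) ≤ (w.count (k - 1) : ℝ) := by
  set β₀ : ℝ := max β (1 / 2) with hβ₀def
  have hβ₀1 : β₀ < 1 := max_lt hβ (by norm_num)
  have hβ₀0 : 0 < β₀ := lt_of_lt_of_le (by norm_num) (le_max_right _ _)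
  set β₁ : ℝ := (1 + β₀) / 2 with hβ₁def
  have hβ₁1 : β₁ < 1 := by rw [hβ₁def]; linarith
  have hβ₁0 : β₀ < β₁ := by rw [hβ₁def]; linarith
  have hgap : 0 < β₁ - β₀ := by linarith
  obtain ⟨N0, hN0⟩ := main_all hβ₁1
  -- the size from which `(log k)^β₁ ≥ (log k)^β₀ + log 2`
  obtain ⟨U, hU⟩ := exists_nat_ge ((2 : ℝ) ^ (1 / (β₁ - β₀)) + 3)
  have hU1 : (3 : ℝ) ≤ U := by
    have : (0 : ℝ) ≤ (2 : ℝ) ^ (1 / (β₁ - β₀)) := by positivity
    linarith
  obtain ⟨K1, hK1⟩ := exists_nat_ge (Real.exp U)
  refine ⟨max N0 (max K1 3), ?_⟩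
  intro k n hk hn
  have hk1 : N0 ≤ k := le_trans (le_max_left _ _) hk
  have hk2 : K1 ≤ k := le_trans (le_trans (le_max_left _ _) (le_max_right _ _)) hk
  have hk3 : 3 ≤ k := le_trans (le_trans (le_max_right _ _) (le_max_right _ _)) hk
  obtain ⟨w, hw, hc⟩ := hN0 (2 * k) (by omega) (even_two_mul k)
  have e : 2 * k / 2 - 1 = k - 1 := by omega
  rw [e] at hc
  obtain ⟨msW, h1, h2⟩ := Reach.of_word (k - 1) w _ _ hw
  set r := n / (2 * k) with hr
  have hs : 0 < 2 * k := by omega
  have hr0 : 0 < r := Nat.div_pos hn hs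
  obtain ⟨ms₁, h3, h4⟩ := copies hs hr0 h1
  have hle : r * (2 * k) ≤ n := Nat.div_mul_le_self n (2 * k)
  obtain ⟨i, hi⟩ : ∃ i, n = r * (2 * k) + i := ⟨n - r * (2 * k), by omega⟩
  obtain ⟨ms₂, h5, h6⟩ := pad_right_many h3 i
  rw [← hi] at h5
  obtain ⟨w', hw', hc'⟩ := h5.to_word
  refine ⟨w', hw', ?_⟩
  have hcount : r * msW.length ≤ w'.count (k - 1) := le_trans h4 (le_trans h6 hc')
  -- real numbers
  have hkR : (3 : ℝ) ≤ k := by exact_mod_cast hk3
  have hkpos : (0 : ℝ) < k := by linarith
  have hlogk : (U : ℝ) ≤ Real.log k := by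
    rw [Real.le_log_iff_exp_le hkpos]
    refine le_trans hK1 ?_
    exact_mod_cast hk2
  have hlogk1 : (1 : ℝ) ≤ Real.log k := by linarith
  set u := Real.log k with hu
  have hlog2k : u ≤ Real.log ((2 * k : ℕ) : ℝ) := by
    apply Real.log_le_log hkpos
    push_cast
    linarith
  -- the comparison of exponents
  have hcomp : u ^ β + Real.log 2 ≤ (Real.log ((2 * k : ℕ) : ℝ)) ^ β₁ := by
    have h7 : u ^ β ≤ u ^ β₀ := Real.rpow_le_rpow_of_exponent_le hlogk1 (le_max_left _ _)
    have h8 : u ^ β₁ ≤ (Real.log ((2 * k : ℕ) : ℝ)) ^ β₁ :=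
      Real.rpow_le_rpow (by linarith) hlog2k (by linarith)
    have h9 : (2 : ℝ) ≤ u ^ (β₁ - β₀) := by
      have h10 : (2 : ℝ) ^ (1 / (β₁ - β₀)) ≤ u := by linarith
      have h11 := Real.rpow_le_rpow (by positivity) h10 hgap.le
      rw [← Real.rpow_mul (by norm_num), one_div, inv_mul_cancel₀ hgap.ne', Real.rpow_one] at h11
      exact h11
    have h12 : u ^ β₁ = u ^ β₀ * u ^ (β₁ - β₀) := by
      rw [← Real.rpow_add (by linarith)]
      congr 1
      ring
    have h13 : (1 : ℝ) ≤ u ^ β₀ := Real.one_le_rpow hlogk1 hβ₀0.le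
    have h14 : Real.log 2 ≤ 1 := by
      have := Real.log_two_lt_d9
      linarith
    nlinarith
  have hexp : 2 * Real.exp (u ^ β) ≤ Real.exp ((Real.log ((2 * k : ℕ) : ℝ)) ^ β₁) := by
    have h15 := Real.exp_le_exp.2 hcomp
    rw [Real.exp_add, Real.exp_log (by norm_num)] at h15
    linarith
  have hc2 : ((2 * k : ℕ) : ℝ) * Real.exp ((Real.log ((2 * k : ℕ) : ℝ)) ^ β₁) ≤ (msW.length : ℝ) := by
    refine le_trans hc ?_
    exact_mod_cast h2
  -- the number of copies
  have hrR : (n : ℝ) ≤ 2 * (r * (2 * k)) := by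
    have h16 : n < 2 * k * (r + 1) := Nat.lt_mul_div_succ n hs
    have h17 : 2 * k * (r + 1) ≤ 2 * (r * (2 * k)) := by
      have : 1 ≤ r := hr0
      nlinarith
    have : n ≤ 2 * (r * (2 * k)) := by omega
    exact_mod_cast this
  have hcR : (r : ℝ) * (msW.length : ℝ) ≤ (w'.count (k - 1) : ℝ) := by exact_mod_cast hcount
  refine le_trans ?_ hcR
  have hr0R : (0 : ℝ) ≤ r := Nat.cast_nonneg _
  have hE : 0 < Real.exp (u ^ β) := Real.exp_pos _
  push_cast at hc2 hexp
  calc (n : ℝ) * Real.exp (u ^ β) ≤ (2 * (r * (2 * k))) * Real.exp (u ^ β) :=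
        mul_le_mul_of_nonneg_right hrR hE.le
    _ = r * (2 * k * (2 * Real.exp (u ^ β))) := by ring
    _ ≤ r * (2 * k * Real.exp ((Real.log (2 * (k : ℝ))) ^ β₁)) := by
        refine mul_le_mul_of_nonneg_left ?_ hr0R
        exact mul_le_mul_of_nonneg_left hexp (by positivity)
    _ ≤ r * (msW.length : ℝ) := mul_le_mul_of_nonneg_left hc2 hr0R

end Vale.Agent.Lib.P065_helper23
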