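import Vale.Agent.Lib.P065_helper23.Seq

/-!
# P065 (pseudoline arrangements): recursion with a lag
-/

namespace Vale.Agent.Lib.P065_helper23

/-- The recursion with a lag `j`: `g(k+1) = g(k) + c * g(k-j)`, and `g(k) = 1` for `k ≤ j`. -/
def gS (j c : ℕ) : ℕ → ℕ
  | 0 => 1
  | k + 1 => if k < j then 1 else gS j c k + c * gS j c (k - j)
termination_by k => k
decreasing_by all_goals omega

theorem gS_le {j c k : ℕ} (h : k ≤ j) : gS j c k = 1 := by
  cases k with
  | zero => rw [gS]
  | succ k =>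
    rw [gS, if_pos (by omega)]

theorem gS_step {j c k : ℕ} (h : j ≤ k) : gS j c (k + 1) = gS j c k + c * gS j c (k - j) := by
  rw [gS, if_neg (by omega)]

theorem gS_pos (j c k : ℕ) : 1 ≤ gS j c k := by
  induction k with
  | zero => rw [gS]
  | succ k ih =>
    by_cases h : k < j
    · rw [gS_le (by omega)]
    · rw [gS_step (by omega)]
      omega

theorem gS_succ_ge (j c k : ℕ) : gS j c k ≤ gS j c (k + 1) := by
  by_cases h : k < j
  · rw [gS_le (by omega), gS_le (by omega)]
  · rw [gS_step (by omega)]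
    omega

theorem gS_mono (j c : ℕ) : Monotone (gS j c) := monotone_nat_of_le_succ (gS_succ_ge j c)

theorem gS_double (j k : ℕ) : gS j 1 (k + 1) ≤ 2 * gS j 1 k := by
  by_cases h : k < j
  · rw [gS_le (j := j) (k := k + 1) (by omega), gS_le (j := j) (k := k) (by omega)]
    omega
  · rw [gS_step (by omega)]
    have := gS_mono j 1 (Nat.sub_le k j)
    omega

theorem gS_lag (j i l : ℕ) : gS j 1 (i + l) ≤ 2 ^ l * gS j 1 i := by
  induction l with
  | zero => simp
  | succ l ih =>
    have h1 := gS_double j (i + l)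
    have e : i + (l + 1) = i + l + 1 := rfl
    rw [e, pow_succ]
    nlinarith

/-- The substitution with two different arrangements. -/
theorem Arr.step2 {n m d t w d' : ℕ} (h : Arr n m d) (h' : Arr t w d') (hn : Even n) (hn2 : 2 ≤ n)
    (ht2 : 2 ≤ t) (hd : 1 ≤ d) : Arr (16 * n * t ^ 2 * d) (15 * t * d * m * w) (d * d') := by
  obtain ⟨ms, h1, h2, h3⟩ := h
  obtain ⟨ms₂, h1', h2', h3'⟩ := h'
  have hpos : 0 < t * d := Nat.mul_pos (by omega) (by omega)
  have h0 : (t - 1) * d ≤ t * d := Nat.mul_le_mul_right _ (by omega)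
  have e0 : 16 * t * d = 16 * (t * d) := by ring
  have hB : (t - 1) * d < 16 * t * d := by omega
  obtain ⟨ms', h4, h5, h6⟩ := subst_step hn hn2 ht2 h1 h1' h3 h3' hB
  have e : n * (t * (16 * t * d)) = 16 * n * t ^ 2 * d := by ring
  rw [e] at h4
  refine ⟨ms', h4, ?_, h6⟩
  refine le_trans ?_ h5
  have e1 : 15 * t * d = 15 * (t * d) := by ring
  have h7 : 15 * t * d ≤ 16 * t * d - (t - 1) * d := by omega
  calc 15 * t * d * m * w = m * (15 * t * d * w) := by ring
    _ ≤ ms.length * ((16 * t * d - (t - 1) * d) * ms₂.length) :=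
      Nat.mul_le_mul h2 (Nat.mul_le_mul h7 h2')

/-- The constant at the start. -/
def e0 (j : ℕ) : ℕ := 4 * 8 * 9 ^ (2 ^ j)

/-- The sequence of arrangements with a lag. -/
theorem lag_seq (j k : ℕ) : ∃ n m d : ℕ, Arr n m d ∧ Even n ∧ 2 ≤ n ∧ d = 9 ^ gS j 1 k ∧
    4 * n * d ^ (2 ^ j) ≤ e0 j ^ gS j 2 k ∧
    (n : ℝ) * (135 / 128 : ℝ) ^ gS j 1 k ≤ (15 / 16 : ℝ) * m := by
  induction k using Nat.strong_induction_on with
  | _ k ih =>
    by_cases hk : k ≤ j
    · refine ⟨8, 9, 9, arr8, by decide, by norm_num, ?_, ?_, ?_⟩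
      · rw [gS_le hk]
        norm_num
      · rw [gS_le hk]
        simp [e0]
      · rw [gS_le hk]
        norm_num
    · obtain ⟨k', rfl⟩ : ∃ k', k = k' + 1 := ⟨k - 1, by omega⟩
      have hj : j ≤ k' := by omega
      obtain ⟨n, m, d, h1, h2, h3, h4, h5, h6⟩ := ih k' (by omega)
      obtain ⟨t, w, d', h1', h2', h3', h4', h5', h6'⟩ := ih (k' - j) (by omega)
      have hd : 1 ≤ d := by
        rw [h4]
        exact Nat.one_le_pow _ _ (by norm_num)
      refine ⟨_, _, _, h1.step2 h1' h2 h3 h3' hd, ?_, ?_, ?_, ?_, ?_⟩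
      · rw [show 16 * n * t ^ 2 * d = 2 * (8 * n * t ^ 2 * d) by ring]
        exact even_two_mul _
      · have h7 : 1 ≤ n * t ^ 2 * d := Nat.mul_pos (Nat.mul_pos (by omega) (by positivity)) (by omega)
        have e : 16 * n * t ^ 2 * d = 16 * (n * t ^ 2 * d) := by ring
        omega
      · rw [gS_step hj, h4, h4', ← pow_add, one_mul]
      · rw [gS_step hj]
        have hdd : d ≤ d' ^ (2 ^ j) := by
          rw [h4, h4', ← pow_mul, mul_comm]
          refine Nat.pow_le_pow_right (by norm_num) ?_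
          have := gS_lag j (k' - j) j
          rwa [Nat.sub_add_cancel hj] at this
        have h7 : (4 * t * d' ^ (2 ^ j)) ^ 2 ≤ (e0 j ^ gS j 2 (k' - j)) ^ 2 :=
          Nat.pow_le_pow_left h5' 2
        have h8 := Nat.mul_le_mul h5 h7
        rw [pow_add, pow_mul']
        refine le_trans ?_ h8
        rw [mul_pow]
        calc 4 * (16 * n * t ^ 2 * d) * (d ^ (2 ^ j) * d' ^ (2 ^ j))
            = (4 * 16 * n * t ^ 2 * d ^ (2 ^ j) * d' ^ (2 ^ j)) * d := by ring
          _ ≤ (4 * 16 * n * t ^ 2 * d ^ (2 ^ j) * d' ^ (2 ^ j)) * d' ^ (2 ^ j) :=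
            Nat.mul_le_mul_left _ hdd
          _ = _ := by ring
      · rw [gS_step hj, one_mul, pow_add]
        set R : ℝ := (135 / 128 : ℝ) ^ gS j 1 k' with hR
        set R' : ℝ := (135 / 128 : ℝ) ^ gS j 1 (k' - j) with hR'
        have hR0 : 0 ≤ R := by positivity
        have hR0' : 0 ≤ R' := by positivity
        push_cast
        have hn : (0 : ℝ) ≤ n := Nat.cast_nonneg _
        have ht : (0 : ℝ) ≤ t := Nat.cast_nonneg _
        have hd' : (0 : ℝ) ≤ d := Nat.cast_nonneg _
        have h9 := mul_le_mul h6 h6' (by positivity) (by positivity)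
        have h10 : (0 : ℝ) ≤ 16 * t * d := by positivity
        have h11 := mul_le_mul_of_nonneg_left h9 h10
        calc (16 : ℝ) * n * t ^ 2 * d * (R * R') = 16 * t * d * (n * R * (t * R')) := by ring
          _ ≤ 16 * t * d * ((15 / 16 : ℝ) * m * ((15 / 16 : ℝ) * w)) := h11
          _ = (15 / 16 : ℝ) * (15 * t * d * m * w) := by ring

end Vale.Agent.Lib.P065_helper23
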