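import Vale.Agent.Lib.P065_helper23.Reach

/-!
# P065 (pseudoline arrangements): lines of the substitution, their order and keys
-/

namespace Vale.Agent.Lib.P065_helper23

/-- Lines of the substitution: bundle, slope, intercept. -/
abbrev Line := ℕ × ℕ × ℕ

/-- Keys: lexicographic quadruples. -/
abbrev K4 := ℕ ×ₗ ℕ ×ₗ ℕ ×ₗ ℕ

/-- The key with four components. -/
def mk4 (a b c d : ℕ) : K4 := toLex (a, toLex (b, toLex (c, d)))

theorem mk4_lt {a b c d a' b' c' d' : ℕ} : mk4 a b c d < mk4 a' b' c' d' ↔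
    a < a' ∨ (a = a' ∧ (b < b' ∨ (b = b' ∧ (c < c' ∨ (c = c' ∧ d < d'))))) := by
  simp [mk4, Prod.Lex.toLex_lt_toLex]

theorem mk4_inj {a b c d a' b' c' d' : ℕ} (h : mk4 a b c d = mk4 a' b' c' d') :
    a = a' ∧ b = b' ∧ c = c' ∧ d = d' := by
  simpa [mk4] using h

section Lab

variable (t B : ℕ)

/-- Label of a line: mixed radix. -/
def lab (ℓ : Line) : ℕ := ℓ.1 * (t * B) + (t - 1 - ℓ.2.1) * B + ℓ.2.2

/-- Order of the lines. -/
def rL (x y : Line) : Prop := lab t B x < lab t B y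

variable {t B}

theorem lab_low {ℓ : Line} (hm : ℓ.2.1 < t) (hb : ℓ.2.2 < B) :
    (t - 1 - ℓ.2.1) * B + ℓ.2.2 < t * B := by
  have h1 : t - 1 - ℓ.2.1 + 1 ≤ t := by omega
  have h2 : (t - 1 - ℓ.2.1 + 1) * B ≤ t * B := Nat.mul_le_mul_right _ h1
  have h3 : (t - 1 - ℓ.2.1 + 1) * B = (t - 1 - ℓ.2.1) * B + B := by ring
  omega

theorem lab_lt_of_C {x y : Line} (hm : x.2.1 < t) (hb : x.2.2 < B) (h : x.1 < y.1) :
    lab t B x < lab t B y := by
  have h0 := lab_low (ℓ := x) hm hb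
  have h1 : (x.1 + 1) * (t * B) ≤ y.1 * (t * B) := Nat.mul_le_mul_right _ h
  have h2 : (x.1 + 1) * (t * B) = x.1 * (t * B) + t * B := by ring
  unfold lab
  have h3 : 0 ≤ (t - 1 - y.2.1) * B + y.2.2 := Nat.zero_le _
  omega

theorem lab_lt_of_m {x y : Line} (hmx : x.2.1 < t) (hb : x.2.2 < B) (hC : x.1 = y.1)
    (h : y.2.1 < x.2.1) : lab t B x < lab t B y := by
  have h1 : t - 1 - x.2.1 + 1 ≤ t - 1 - y.2.1 := by omega
  have h2 : (t - 1 - x.2.1 + 1) * B ≤ (t - 1 - y.2.1) * B := Nat.mul_le_mul_right _ h1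
  have h3 : (t - 1 - x.2.1 + 1) * B = (t - 1 - x.2.1) * B + B := by ring
  unfold lab
  rw [hC]
  omega

theorem lab_lt_of_b {x y : Line} (hC : x.1 = y.1) (hm : x.2.1 = y.2.1) (h : x.2.2 < y.2.2) :
    lab t B x < lab t B y := by
  unfold lab
  rw [hC, hm]
  omega

/-- The three cases of the order for valid lines. -/
theorem lab_cases {x y : Line} (hmx : x.2.1 < t) (hbx : x.2.2 < B) 
    (h : lab t B y < lab t B x) :
    y.1 < x.1 ∨ (y.1 = x.1 ∧ x.2.1 < y.2.1) ∨ (y.1 = x.1 ∧ y.2.1 = x.2.1 ∧ y.2.2 < x.2.2) := by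
  rcases lt_trichotomy y.1 x.1 with h1 | h1 | h1
  · exact Or.inl h1
  · rcases lt_trichotomy x.2.1 y.2.1 with h2 | h2 | h2
    · exact Or.inr (Or.inl ⟨h1, h2⟩)
    · rcases lt_trichotomy y.2.2 x.2.2 with h3 | h3 | h3
      · exact Or.inr (Or.inr ⟨h1, h2.symm, h3⟩)
      · unfold lab at h
        rw [h1, ← h2, h3] at h
        exact absurd h (lt_irrefl _)
      · have := lab_lt_of_b (t := t) (B := B) (x := x) (y := y) h1.symm h2 h3
        omega
    · have := lab_lt_of_m (t := t) (B := B) (x := x) (y := y) hmx hbx h1.symm h2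
      omega
  · have := lab_lt_of_C (t := t) (B := B) (x := x) (y := y) hmx hbx h1
    omega

/-- The label determines a valid line. -/
theorem lab_inj {x y : Line} (hmx : x.2.1 < t) (hbx : x.2.2 < B) (hmy : y.2.1 < t) (hby : y.2.2 < B)
    (h : lab t B x = lab t B y) : x = y := by
  rcases lt_trichotomy x.1 y.1 with h1 | h1 | h1
  · have := lab_lt_of_C (t := t) (B := B) (x := x) (y := y) hmx hbx h1
    omega
  · rcases lt_trichotomy x.2.1 y.2.1 with h2 | h2 | h2
    · have := lab_lt_of_m (t := t) (B := B) (x := y) (y := x) hmy hby h1.symm h2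
      omega
    · rcases lt_trichotomy x.2.2 y.2.2 with h3 | h3 | h3
      · have := lab_lt_of_b (t := t) (B := B) (x := x) (y := y) h1 h2 h3
        omega
      · exact Prod.ext h1 (Prod.ext h2 h3)
      · have := lab_lt_of_b (t := t) (B := B) (x := y) (y := x) h1.symm h2.symm h3
        omega
    · have := lab_lt_of_m (t := t) (B := B) (x := x) (y := y) hmx hbx h1 h2
      omega
  · have := lab_lt_of_C (t := t) (B := B) (x := y) (y := x) hmy hby h1
    omega

theorem lab_lt_card {n : ℕ} {x : Line} (hC : x.1 < n) (hm : x.2.1 < t) (hb : x.2.2 < B) :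
    lab t B x < n * (t * B) := by
  have h0 := lab_low (ℓ := x) hm hb
  have h1 : (x.1 + 1) * (t * B) ≤ n * (t * B) := Nat.mul_le_mul_right _ hC
  have h2 : (x.1 + 1) * (t * B) = x.1 * (t * B) + t * B := by ring
  unfold lab
  omega

end Lab

/-- The lines of a bundle. -/
def linesOf (t B C : ℕ) : Finset Line := {C} ×ˢ (Finset.range t ×ˢ Finset.range B)

/-- All lines. -/
def allLines (n t B : ℕ) : Finset Line := Finset.range n ×ˢ (Finset.range t ×ˢ Finset.range B)

@[simp] theorem mem_linesOf {t B C : ℕ} {ℓ : Line} :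
    ℓ ∈ linesOf t B C ↔ ℓ.1 = C ∧ ℓ.2.1 < t ∧ ℓ.2.2 < B := by
  obtain ⟨a, b, c⟩ := ℓ
  simp only [linesOf, Finset.mem_product, Finset.mem_singleton, Finset.mem_range]

@[simp] theorem mem_allLines {n t B : ℕ} {ℓ : Line} :
    ℓ ∈ allLines n t B ↔ ℓ.1 < n ∧ ℓ.2.1 < t ∧ ℓ.2.2 < B := by
  obtain ⟨a, b, c⟩ := ℓ
  simp [allLines]

theorem card_linesOf (t B C : ℕ) : (linesOf t B C).card = t * B := by
  simp [linesOf]

/-- Sorted list of a finite set of lines by a key. -/
noncomputable def sortL (k : Line → K4) (S : Finset Line) : List Line := isort k S.toList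

theorem mem_sortL {k : Line → K4} {S : Finset Line} {ℓ : Line} : ℓ ∈ sortL k S ↔ ℓ ∈ S := by
  unfold sortL
  rw [(isort_perm k S.toList).mem_iff]
  simp

theorem pairwise_sortL {k : Line → K4} {S : Finset Line}
    (hinj : ∀ x ∈ S, ∀ y ∈ S, k x = k y → x = y) :
    (sortL k S).Pairwise fun x y => k x < k y :=
  isort_pairwise k _ (Finset.nodup_toList S) (fun x hx y hy => hinj x (by simpa using hx) y (by simpa using hy))

theorem length_sortL {k : Line → K4} {S : Finset Line} : (sortL k S).length = S.card := by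
  unfold sortL
  rw [(isort_perm k S.toList).length_eq]
  simp

/-- Value of a line at time `x`. -/
def val (x : ℕ) (ℓ : Line) : ℕ := ℓ.2.1 * x + ℓ.2.2

/-- The bundle `C` in the order just after time `x`. -/
noncomputable def bd (t B C x : ℕ) : List Line :=
  sortL (fun ℓ => mk4 0 0 (val x ℓ) ℓ.2.1) (linesOf t B C)

theorem mem_bd {t B C x : ℕ} {ℓ : Line} : ℓ ∈ bd t B C x ↔ ℓ.1 = C ∧ ℓ.2.1 < t ∧ ℓ.2.2 < B := by
  simp [bd, mem_sortL]

theorem length_bd (t B C x : ℕ) : (bd t B C x).length = t * B := by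
  simp [bd, length_sortL, card_linesOf]

theorem pairwise_bd (t B C x : ℕ) :
    (bd t B C x).Pairwise fun a b => mk4 0 0 (val x a) a.2.1 < mk4 0 0 (val x b) b.2.1 := by
  refine pairwise_sortL ?_
  intro a ha b hb hab
  rw [mem_linesOf] at ha hb
  obtain ⟨-, -, h1, h2⟩ := mk4_inj hab
  have h3 : a.2.2 = b.2.2 := by
    unfold val at h1
    rw [h2] at h1
    omega
  exact Prod.ext (ha.1.trans hb.1.symm) (Prod.ext h2 h3)

/-- Positions in a list without repetition increase along the list. -/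
theorem pairwise_idxOf {l : List ℕ} (hl : l.Nodup) :
    l.Pairwise fun a b => l.idxOf a < l.idxOf b := by
  rw [List.pairwise_iff_getElem]
  intro i j hi hj hij
  rw [hl.idxOf_getElem, hl.idxOf_getElem]
  exact hij

/-- Key of a state of the outer arrangement. -/
def keyS (π : List ℕ) (x : ℕ → ℕ) (ℓ : Line) : K4 :=
  mk4 (π.idxOf ℓ.1) 0 (val (x ℓ.1) ℓ) ℓ.2.1

/-- The state between two steps of the outer arrangement. -/
noncomputable def Sst (n t B : ℕ) (π : List ℕ) (x : ℕ → ℕ) : List Line :=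
  sortL (keyS π x) (allLines n t B)

theorem mem_Sst {n t B : ℕ} {π : List ℕ} {x : ℕ → ℕ} {ℓ : Line} :
    ℓ ∈ Sst n t B π x ↔ ℓ ∈ allLines n t B := mem_sortL

theorem pairwise_Sst {n t B : ℕ} {π : List ℕ} (x : ℕ → ℕ) (hπ : ∀ C, C < n → C ∈ π) :
    (Sst n t B π x).Pairwise fun a b => keyS π x a < keyS π x b := by
  refine pairwise_sortL ?_
  intro a ha b hb hab
  rw [mem_allLines] at ha hb
  obtain ⟨h0, -, h1, h2⟩ := mk4_inj hab
  have h3 : a.1 = b.1 := (List.idxOf_inj (hπ _ ha.1)).1 h0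
  have h4 : a.2.2 = b.2.2 := by
    unfold val at h1
    rw [h2, h3] at h1
    omega
  exact Prod.ext h3 (Prod.ext h2 h4)

end Vale.Agent.Lib.P065_helper23
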