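import Vale.Agent.Lib.P065_helper23.Lag

/-!
# P065 (pseudoline arrangements): all even sizes
-/

namespace Vale.Agent.Lib.P065_helper23

/-- Any list of the labels below `N` without repetition can be run to the reversed list. -/
theorem to_top {g N : ℕ} {l : List ℕ} (hl : l.Nodup) (hmem : ∀ a, a ∈ l ↔ a < N) :
    Reach (· < ·) g l (List.range N).reverse [] := by
  refine filler (fun a => l.idxOf a) (fun a => N - a) (pairwise_idxOf hl) ?_ ?_ ?_ ?_
  · rw [List.pairwise_reverse, List.pairwise_iff_getElem]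
    intro i j hi hj hij
    simp only [List.getElem_range]
    simp only [List.length_range] at hi hj
    omega
  · intro a
    rw [hmem, List.mem_reverse, List.mem_range]
  · intro a ha b hb hne
    show a < b ∨ b < a
    omega
  · intro a ha b _ hr _
    have hr' : b < a := hr
    have := (hmem a).1 ha
    show N - a < N - b
    omega

/-- Two new lines, one on each side. -/
theorem pad_two {n : ℕ} {ms : List (ℕ × ℕ)} (hn2 : 2 ≤ n)
    (h : Reach (· < ·) (n / 2 - 1) (List.range n) (List.range n).reverse ms) :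
    ∃ ms', Reach (· < ·) ((n + 2) / 2 - 1) (List.range (n + 2)) (List.range (n + 2)).reverse ms' ∧
      ms.length ≤ ms'.length := by
  have h1 := Reach.lift (r' := (· < ·)) (g' := (n + 2) / 2 - 1) (fun a => a + 1) h
    (fun a _ b _ hab => Nat.succ_lt_succ hab) [0] [n + 1] (by
      simp only [List.length_cons, List.length_nil]
      omega)
  have e : [0] ++ (List.range n).map (fun a => a + 1) ++ [n + 1] = List.range (n + 2) := by
    rw [List.range_succ (n := n + 1), List.range_succ_eq_map]
    rfl
  rw [e] at h1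
  have hmem : ∀ a, a ∈ [0] ++ (List.range n).reverse.map (fun a => a + 1) ++ [n + 1] ↔ a < n + 2 := by
    intro a
    have hperm : ([0] ++ (List.range n).reverse.map (fun a => a + 1) ++ [n + 1]).Perm
        (List.range (n + 2)) := by
      rw [← e]
      refine List.Perm.append_right _ (List.Perm.append_left _ ?_)
      exact (List.reverse_perm _).map _
    rw [hperm.mem_iff, List.mem_range]
  have hnd : ([0] ++ (List.range n).reverse.map (fun a => a + 1) ++ [n + 1]).Nodup := by
    have hperm : ([0] ++ (List.range n).reverse.map (fun a => a + 1) ++ [n + 1]).Perm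
        (List.range (n + 2)) := by
      rw [← e]
      refine List.Perm.append_right _ (List.Perm.append_left _ ?_)
      exact (List.reverse_perm _).map _
    exact hperm.nodup_iff.2 List.nodup_range
  have h2 := h1.trans (to_top (g := (n + 2) / 2 - 1) hnd hmem)
  exact ⟨_, h2, by simp⟩

theorem pad_many {n : ℕ} {ms : List (ℕ × ℕ)} (hn2 : 2 ≤ n)
    (h : Reach (· < ·) (n / 2 - 1) (List.range n) (List.range n).reverse ms) (i : ℕ) :
    ∃ ms', Reach (· < ·) ((n + 2 * i) / 2 - 1) (List.range (n + 2 * i))
      (List.range (n + 2 * i)).reverse ms' ∧ ms.length ≤ ms'.length := by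
  induction i with
  | zero => exact ⟨ms, h, le_rfl⟩
  | succ i ih =>
    obtain ⟨ms', h1, h2⟩ := ih
    obtain ⟨ms'', h3, h4⟩ := pad_two (by omega) h1
    exact ⟨ms'', h3, le_trans h2 h4⟩

/-- The arrangement with one crossing. -/
theorem reach_two : Reach (· < ·) (2 / 2 - 1) (List.range 2) (List.range 2).reverse [(0, 1)] :=
  Reach.mark [] 0 1 [] _ _ (by norm_num) rfl (Reach.refl _)

/-- **All even sizes** above a bound depending on an arrangement. -/
theorem blow {n m d N : ℕ} (h : Arr n m d) (hn : Even n) (hn2 : 2 ≤ n) (hd : 1 ≤ d)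
    (hN : 4 * n * d ≤ N) (hNe : Even N) :
    ∃ w : List ℕ, runW (List.range N) w = some (List.range N).reverse ∧
      (m : ℝ) * N / (8 * n) ≤ (w.count (N / 2 - 1) : ℝ) := by
  obtain ⟨ms, h1, h2, h3⟩ := h
  have hnpos : 0 < 2 * n := by omega
  set B := N / (2 * n) with hBdef
  have hB2 : 2 * d ≤ B := by
    rw [hBdef, Nat.le_div_iff_mul_le hnpos]
    calc 2 * d * (2 * n) = 4 * n * d := by ring
      _ ≤ N := hN
  have hB : (2 - 1) * d < B := by omega
  obtain ⟨ms₁, h4, h5, -⟩ := subst_step (dW := 1) hn hn2 (le_refl 2) h1 reach_two h3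
    (fun a => by
      unfold rc
      exact le_trans List.countP_le_length (by simp)) hB
  have hle : n * (2 * B) ≤ N := by
    have := Nat.div_mul_le_self N (2 * n)
    rw [← hBdef] at this
    calc n * (2 * B) = B * (2 * n) := by ring
      _ ≤ N := this
  have hlt : N < 2 * n * (B + 1) := Nat.lt_mul_div_succ N hnpos
  obtain ⟨i, hi⟩ : ∃ i, N = n * (2 * B) + 2 * i := by
    have h6 : Even (n * (2 * B)) := ⟨n * B, by ring⟩
    obtain ⟨i, hi⟩ := (Nat.even_sub hle).2 (by tauto)
    exact ⟨i, by omega⟩
  have hn1 : 2 ≤ n * (2 * B) := by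
    have : 1 ≤ n * B := Nat.mul_pos (by omega) (by omega)
    calc 2 = 2 * 1 := rfl
      _ ≤ 2 * (n * B) := Nat.mul_le_mul_left _ this
      _ = n * (2 * B) := by ring
  obtain ⟨ms₂, h7, h8⟩ := pad_many hn1 h4 i
  rw [← hi] at h7
  obtain ⟨w, hw, hc⟩ := h7.to_word
  refine ⟨w, hw, ?_⟩
  -- the count
  have hcount : ms.length * ((B - (2 - 1) * d) * 1) ≤ w.count (N / 2 - 1) := by
    have := List.length_cons (a := (0, 1)) (as := ([] : List (ℕ × ℕ)))
    simp only [List.length_cons, List.length_nil, zero_add] at h5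
    omega
  have hmB : m * (B - d) ≤ w.count (N / 2 - 1) := by
    refine le_trans (Nat.mul_le_mul_right _ h2) ?_
    simpa using hcount
  have hmB' : (m : ℝ) * ((B : ℝ) - d) ≤ (w.count (N / 2 - 1) : ℝ) := by
    have h9 : ((B - d : ℕ) : ℝ) = (B : ℝ) - d := by
      rw [Nat.cast_sub (by omega)]
    rw [← h9]
    exact_mod_cast hmB
  refine le_trans ?_ hmB'
  have hnR : (0 : ℝ) < n := by
    have : 0 < n := by omega
    exact_mod_cast this
  have hm0 : (0 : ℝ) ≤ m := Nat.cast_nonneg _
  have hB1 : (1 : ℝ) ≤ B := by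
    have : 1 ≤ B := by omega
    exact_mod_cast this
  have hBd : (2 : ℝ) * d ≤ B := by exact_mod_cast hB2
  have hNlt : (N : ℝ) < 2 * n * (B + 1) := by exact_mod_cast hlt
  rw [mul_div_assoc]
  refine mul_le_mul_of_nonneg_left ?_ hm0
  rw [div_le_iff₀ (by positivity)]
  nlinarith

end Vale.Agent.Lib.P065_helper23
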