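import Mathlib

/-!
# P065 (pseudoline arrangements): abstract runs of adjacent swaps

`Reach r g l l' ms`: the list `l` is turned into `l'` by adjacent swaps of pairs `a, b` with `r a b`;
some swaps at position `g` are marked and recorded in `ms`.
-/

open List

namespace Vale.Agent.Lib.P065_helper23

universe u v

variable {α : Type u} {β : Type v}

/-- Runs of adjacent swaps with marks at position `g`. -/
inductive Reach (r : α → α → Prop) (g : ℕ) : List α → List α → List (α × α) → Prop
  | refl (l : List α) : Reach r g l l []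
  | swap (pre : List α) (a b : α) (suf l' : List α) (ms : List (α × α)) :
      r a b → Reach r g (pre ++ b :: a :: suf) l' ms → Reach r g (pre ++ a :: b :: suf) l' ms
  | mark (pre : List α) (a b : α) (suf l' : List α) (ms : List (α × α)) :
      r a b → pre.length = g → Reach r g (pre ++ b :: a :: suf) l' ms →
        Reach r g (pre ++ a :: b :: suf) l' ((a, b) :: ms)

theorem Reach.trans {r : α → α → Prop} {g : ℕ} {l₁ l₂ l₃ : List α} {m₁ m₂ : List (α × α)}
    (h₁ : Reach r g l₁ l₂ m₁) (h₂ : Reach r g l₂ l₃ m₂) : Reach r g l₁ l₃ (m₁ ++ m₂) := by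
  induction h₁ with
  | refl l => simpa using h₂
  | swap pre a b suf l' ms hr _ ih => exact Reach.swap pre a b suf _ _ hr (ih h₂)
  | mark pre a b suf l' ms hr hg _ ih => exact Reach.mark pre a b suf _ _ hr hg (ih h₂)

/-- All the steps of a run keep the set of elements. -/
theorem Reach.mem_iff {r : α → α → Prop} {g : ℕ} {l l' : List α} {ms : List (α × α)}
    (h : Reach r g l l' ms) (x : α) : x ∈ l ↔ x ∈ l' := by
  induction h with
  | refl l => rfl
  | swap pre a b suf l' ms _ _ ih =>
    rw [← ih]; simp only [mem_append, mem_cons]; tauto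
  | mark pre a b suf l' ms _ _ _ ih =>
    rw [← ih]; simp only [mem_append, mem_cons]; tauto

/-- The marks are pairs of elements. -/
theorem Reach.mark_mem {r : α → α → Prop} {g : ℕ} {l l' : List α} {ms : List (α × α)}
    (h : Reach r g l l' ms) (q : α × α) (hq : q ∈ ms) : q.1 ∈ l ∧ q.2 ∈ l := by
  induction h with
  | refl l => simp at hq
  | swap pre a b suf l' ms _ _ ih =>
    obtain ⟨h1, h2⟩ := ih hq
    simp only [mem_append, mem_cons] at h1 h2 ⊢
    constructor <;> tauto
  | mark pre a b suf l' ms _ _ _ ih =>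
    rcases List.mem_cons.1 hq with rfl | hq
    · simp
    · obtain ⟨h1, h2⟩ := ih hq
      simp only [mem_append, mem_cons] at h1 h2 ⊢
      constructor <;> tauto

/-- Lifting a run along a map with a context. -/
theorem Reach.lift {r : α → α → Prop} {r' : β → β → Prop} {g g' : ℕ} (φ : α → β)
    {l l' : List α} {ms : List (α × α)} (h : Reach r g l l' ms)
    (hφ : ∀ a ∈ l, ∀ b ∈ l, r a b → r' (φ a) (φ b))
    (pre₀ suf₀ : List β) (hg : pre₀.length + g = g') :
    Reach r' g' (pre₀ ++ l.map φ ++ suf₀) (pre₀ ++ l'.map φ ++ suf₀)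
      (ms.map (Prod.map φ φ)) := by
  induction h with
  | refl l => exact Reach.refl _
  | swap pre a b suf l' ms hr _ ih =>
    have hφ' : ∀ x ∈ pre ++ b :: a :: suf, ∀ y ∈ pre ++ b :: a :: suf, r x y → r' (φ x) (φ y) := by
      intro x hx y hy
      refine hφ x ?_ y ?_
      · simp only [mem_append, mem_cons] at hx ⊢; tauto
      · simp only [mem_append, mem_cons] at hy ⊢; tauto
    have ih' := ih hφ'
    have hr' : r' (φ a) (φ b) := hφ a (by simp) b (by simp) hr
    have e1 : pre₀ ++ (pre ++ a :: b :: suf).map φ ++ suf₀ =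
        (pre₀ ++ pre.map φ) ++ φ a :: φ b :: (suf.map φ ++ suf₀) := by simp
    have e2 : pre₀ ++ (pre ++ b :: a :: suf).map φ ++ suf₀ =
        (pre₀ ++ pre.map φ) ++ φ b :: φ a :: (suf.map φ ++ suf₀) := by simp
    rw [e1]
    rw [e2] at ih'
    exact Reach.swap _ _ _ _ _ _ hr' ih'
  | mark pre a b suf l' ms hr hp _ ih =>
    have hφ' : ∀ x ∈ pre ++ b :: a :: suf, ∀ y ∈ pre ++ b :: a :: suf, r x y → r' (φ x) (φ y) := by
      intro x hx y hy
      refine hφ x ?_ y ?_
      · simp only [mem_append, mem_cons] at hx ⊢; tauto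
      · simp only [mem_append, mem_cons] at hy ⊢; tauto
    have ih' := ih hφ'
    have hr' : r' (φ a) (φ b) := hφ a (by simp) b (by simp) hr
    have e1 : pre₀ ++ (pre ++ a :: b :: suf).map φ ++ suf₀ =
        (pre₀ ++ pre.map φ) ++ φ a :: φ b :: (suf.map φ ++ suf₀) := by simp
    have e2 : pre₀ ++ (pre ++ b :: a :: suf).map φ ++ suf₀ =
        (pre₀ ++ pre.map φ) ++ φ b :: φ a :: (suf.map φ ++ suf₀) := by simp
    rw [e1]
    rw [e2] at ih'
    have hlen : (pre₀ ++ pre.map φ).length = g' := by simp [hp, hg]
    exact Reach.mark _ _ _ _ _ _ hr' hlen ih'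

/-- A run without marks can be extended by a common first element, at any gap. -/
theorem Reach.cons_nil {r : α → α → Prop} {g g' : ℕ} {l l' : List α} (c : α)
    (h : Reach r g l l' []) : Reach r g' (c :: l) (c :: l') [] := by
  generalize hms : ([] : List (α × α)) = ms at h
  induction h with
  | refl l => exact Reach.refl _
  | swap pre a b suf l' ms hr _ ih =>
    exact Reach.swap (c :: pre) a b suf _ _ hr (ih hms)
  | mark pre a b suf l' ms hr hp _ ih => simp at hms

section SortSec

variable {κ : Type v} [LinearOrder κ]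

/-- Insertion by key. -/
def ins (k : α → κ) (c : α) : List α → List α
  | [] => [c]
  | e :: s => if k c < k e then c :: e :: s else e :: ins k c s

/-- Insertion sort by key. -/
def isort (k : α → κ) : List α → List α
  | [] => []
  | c :: l => ins k c (isort k l)

theorem ins_perm (k : α → κ) (c : α) (s : List α) : (ins k c s).Perm (c :: s) := by
  induction s with
  | nil => simp [ins]
  | cons e s ih =>
    simp only [ins]
    split_ifs
    · exact List.Perm.refl _
    · exact (List.Perm.cons e ih).trans (List.Perm.swap c e s)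

theorem isort_perm (k : α → κ) (l : List α) : (isort k l).Perm l := by
  induction l with
  | nil => simp [isort]
  | cons c l ih =>
    simp only [isort]
    exact (ins_perm k c _).trans (List.Perm.cons c ih)

theorem ins_pairwise (k : α → κ) (c : α) (s : List α)
    (hs : s.Pairwise fun x y => k x < k y) (hc : ∀ e ∈ s, k c ≠ k e) :
    (ins k c s).Pairwise fun x y => k x < k y := by
  induction s with
  | nil => simp [ins]
  | cons e s ih =>
    simp only [ins]
    rw [List.pairwise_cons] at hs
    split_ifs with h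
    · rw [List.pairwise_cons]
      refine ⟨?_, List.pairwise_cons.2 hs⟩
      intro a ha
      rcases List.mem_cons.1 ha with rfl | ha
      · exact h
      · exact h.trans (hs.1 a ha)
    · rw [List.pairwise_cons]
      refine ⟨?_, ih hs.2 (fun x hx => hc x (List.mem_cons_of_mem _ hx))⟩
      intro a ha
      have ha' := (ins_perm k c s).mem_iff.1 ha
      rcases List.mem_cons.1 ha' with rfl | ha'
      · exact lt_of_le_of_ne (not_lt.1 h) (hc e (by simp)).symm
      · exact hs.1 a ha'

theorem isort_pairwise (k : α → κ) (l : List α) (hl : l.Nodup)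
    (hinj : ∀ x ∈ l, ∀ y ∈ l, k x = k y → x = y) :
    (isort k l).Pairwise fun x y => k x < k y := by
  induction l with
  | nil => simp [isort]
  | cons c l ih =>
    simp only [isort]
    rw [List.nodup_cons] at hl
    refine ins_pairwise k c _ (ih hl.2 fun x hx y hy => hinj x (by simp [hx]) y (by simp [hy])) ?_
    intro e he hk
    have he' := (isort_perm k l).mem_iff.1 he
    have := hinj c (by simp) e (by simp [he']) hk
    exact hl.1 (this ▸ he')

theorem reach_ins {r : α → α → Prop} {g : ℕ} (k : α → κ) (c : α) (s : List α)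
    (hs : ∀ e ∈ s, ¬ k c < k e → r c e) : Reach r g (c :: s) (ins k c s) [] := by
  induction s with
  | nil => exact Reach.refl _
  | cons e s ih =>
    simp only [ins]
    split_ifs with h
    · exact Reach.refl _
    · have hr : r c e := hs e (by simp) h
      have h2 : Reach r g (e :: c :: s) (e :: ins k c s) [] :=
        Reach.cons_nil e (ih fun x hx => hs x (List.mem_cons_of_mem _ hx))
      exact Reach.swap [] c e s _ _ hr h2

theorem reach_isort {r : α → α → Prop} {g : ℕ} (k : α → κ) (l : List α)
    (h : l.Pairwise fun x y => ¬ k x < k y → r x y) : Reach r g l (isort k l) [] := by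
  induction l with
  | nil => exact Reach.refl _
  | cons c l ih =>
    rw [List.pairwise_cons] at h
    simp only [isort]
    have h1 : Reach r g (c :: l) (c :: isort k l) [] := Reach.cons_nil c (ih h.2)
    have h2 := reach_ins (r := r) (g := g) k c (isort k l) (fun e he => h.1 e ((isort_perm k l).mem_iff.1 he))
    simpa using h1.trans h2

/-- **Filler**: a run between two lists sorted by two keys, when every out of order pair is inverted
in the right direction. -/
theorem filler {r : α → α → Prop} {g : ℕ} {κ₁ : Type v} [LinearOrder κ₁] (k₁ : α → κ₁) (k₂ : α → κ)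
    {l₁ l₂ : List α}
    (h₁ : l₁.Pairwise fun x y => k₁ x < k₁ y) (h₂ : l₂.Pairwise fun x y => k₂ x < k₂ y)
    (hmem : ∀ x, x ∈ l₁ ↔ x ∈ l₂)
    (htot : ∀ x ∈ l₁, ∀ y ∈ l₁, x ≠ y → r x y ∨ r y x)
    (hmono : ∀ x ∈ l₁, ∀ y ∈ l₁, r y x → k₁ x < k₁ y → k₂ x < k₂ y) :
    Reach r g l₁ l₂ [] := by
  have hnd1 : l₁.Nodup := h₁.imp fun h => ne_of_apply_ne k₁ (ne_of_lt h)
  have hnd2 : l₂.Nodup := h₂.imp fun h => ne_of_apply_ne k₂ (ne_of_lt h)
  have hperm : l₁.Perm l₂ := (List.perm_ext_iff_of_nodup hnd1 hnd2).2 hmem
  have hinj : ∀ x ∈ l₁, ∀ y ∈ l₁, k₂ x = k₂ y → x = y := by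
    intro x hx y hy hxy
    have hx' := (hmem x).1 hx
    have hy' := (hmem y).1 hy
    by_contra hne
    rcases (List.mem_iff_get.1 hx') with ⟨i, rfl⟩
    rcases (List.mem_iff_get.1 hy') with ⟨j, rfl⟩
    have hij : i ≠ j := fun h => hne (by rw [h])
    rcases lt_or_gt_of_ne hij with h | h
    · have := (List.pairwise_iff_get.1 h₂) i j h
      exact absurd hxy (ne_of_lt this)
    · have := (List.pairwise_iff_get.1 h₂) j i h
      exact absurd hxy.symm (ne_of_lt this)
  have hkey : l₁.Pairwise fun x y => ¬ k₂ x < k₂ y → r x y := by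
    rw [List.pairwise_iff_forall_sublist] at h₁ ⊢
    intro x y hsub hnot
    have hxm : x ∈ l₁ := hsub.subset (by simp)
    have hym : y ∈ l₁ := hsub.subset (by simp)
    have hlt := h₁ hsub
    have hne : x ≠ y := ne_of_apply_ne k₁ (ne_of_lt hlt)
    rcases htot x hxm y hym hne with h | h
    · exact h
    · exact absurd (hmono x hxm y hym h hlt) hnot
  have hrun := reach_isort (r := r) (g := g) k₂ l₁ hkey
  have hs := isort_pairwise k₂ l₁ hnd1 hinj
  have heq : isort k₂ l₁ = l₂ := by
    refine List.Perm.eq_of_pairwise (le := fun x y => k₂ x < k₂ y) ?_ hs h₂ ((isort_perm k₂ l₁).trans hperm)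
    intro a b _ _ h1 h2
    exact absurd h1 (not_lt.2 h2.le)
  rwa [heq] at hrun

end SortSec

/-- Number of marks with a given first component. -/
def rc [DecidableEq α] (ms : List (α × α)) (a : α) : ℕ := ms.countP fun q => q.1 = a

@[simp] theorem rc_nil [DecidableEq α] (a : α) : rc ([] : List (α × α)) a = 0 := rfl

theorem rc_append [DecidableEq α] (m₁ m₂ : List (α × α)) (a : α) :
    rc (m₁ ++ m₂) a = rc m₁ a + rc m₂ a := by simp [rc]

theorem rc_cons [DecidableEq α] (q : α × α) (m : List (α × α)) (a : α) :
    rc (q :: m) a = (if q.1 = a then 1 else 0) + rc m a := by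
  simp only [rc, List.countP_cons]
  split_ifs <;> simp_all <;> omega

/-- One swap of wires `p, p+1`, allowed when the labels increase. -/
def stepW (l : List ℕ) (p : ℕ) : Option (List ℕ) :=
  match l.drop p with
  | a :: b :: suf => if a < b then some (l.take p ++ b :: a :: suf) else none
  | _ => none

/-- Running a word of positions. -/
def runW (l : List ℕ) : List ℕ → Option (List ℕ)
  | [] => some l
  | p :: w => (stepW l p).bind fun l' => runW l' w

theorem stepW_append (pre suf : List ℕ) (a b : ℕ) (h : a < b) :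
    stepW (pre ++ a :: b :: suf) pre.length = some (pre ++ b :: a :: suf) := by
  simp [stepW, h]

/-- A run gives a word. -/
theorem Reach.to_word {g : ℕ} {l l' : List ℕ} {ms : List (ℕ × ℕ)}
    (h : Reach (· < ·) g l l' ms) : ∃ w, runW l w = some l' ∧ ms.length ≤ w.count g := by
  induction h with
  | refl l => exact ⟨[], rfl, by simp⟩
  | swap pre a b suf l' ms hr _ ih =>
    obtain ⟨w, hw, hc⟩ := ih
    refine ⟨pre.length :: w, ?_, ?_⟩
    · simp [runW, stepW_append _ _ _ _ hr, hw]
    · calc ms.length ≤ w.count g := hc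
        _ ≤ (pre.length :: w).count g := List.count_le_count_cons
  | mark pre a b suf l' ms hr hg _ ih =>
    obtain ⟨w, hw, hc⟩ := ih
    refine ⟨pre.length :: w, ?_, ?_⟩
    · simp [runW, stepW_append _ _ _ _ hr, hw]
    · subst hg
      simp only [List.length_cons, List.count_cons_self]
      omega

end Vale.Agent.Lib.P065_helper23
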