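import Vale.Agent.Lib.P065_helper23.Subst

/-!
# P065 (pseudoline arrangements): the sequence of arrangements
-/

namespace Vale.Agent.Lib.P065_helper23

/-- Run of a word with the marks at position `g`. -/
def runM (g : ℕ) : List ℕ → List ℕ → Option (List ℕ × List (ℕ × ℕ))
  | l, [] => some (l, [])
  | l, p :: w =>
    match l.drop p with
    | a :: b :: suf =>
      if a < b then
        (runM g (l.take p ++ b :: a :: suf) w).map fun r =>
          (r.1, if p = g then (a, b) :: r.2 else r.2)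
      else none
    | _ => none

theorem runM_spec (g : ℕ) (w : List ℕ) : ∀ (l l' : List ℕ) (ms : List (ℕ × ℕ)),
    runM g l w = some (l', ms) → Reach (· < ·) g l l' ms := by
  induction w with
  | nil =>
    intro l l' ms h
    simp only [runM, Option.some.injEq, Prod.mk.injEq] at h
    obtain ⟨rfl, rfl⟩ := h
    exact Reach.refl _
  | cons p w ih =>
    intro l l' ms h
    simp only [runM] at h
    split at h
    · rename_i a b suf hdrop
      by_cases hab : a < b
      swap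
      · rw [if_neg hab] at h
        simp at h
      rw [if_pos hab] at h
      obtain ⟨r, hr, hr'⟩ := Option.map_eq_some_iff.1 h
      have hl : l = l.take p ++ a :: b :: suf := by
        conv_lhs => rw [← List.take_append_drop p l, hdrop]
      have hlen : (l.take p).length = p := by
        rw [List.length_take]
        have : (l.drop p).length = 2 + suf.length := by
          rw [hdrop]
          simp only [List.length_cons]
          omega
        rw [List.length_drop] at this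
        omega
      obtain ⟨r1, r2⟩ := r
      simp only [Prod.mk.injEq] at hr'
      obtain ⟨rfl, rfl⟩ := hr'
      have h2 := ih _ _ _ hr
      rw [hl]
      by_cases hp : p = g
      · rw [if_pos hp]
        exact Reach.mark _ _ _ _ _ _ hab (by rw [hlen, hp]) h2
      · rw [if_neg hp]
        exact Reach.swap _ _ _ _ _ _ hab h2
    · simp at h

/-- Arrangements with at least `m` crossings at the middle position, and each line rising at most `d`
times there. -/
def Arr (n m d : ℕ) : Prop :=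
  ∃ ms : List (ℕ × ℕ), Reach (· < ·) (n / 2 - 1) (List.range n) (List.range n).reverse ms ∧
    m ≤ ms.length ∧ ∀ a, rc ms a ≤ d

theorem Arr.step {n m d : ℕ} (h : Arr n m d) (hn : Even n) (hn2 : 2 ≤ n) (hd : 1 ≤ d) :
    Arr (16 * n ^ 3 * d) (15 * n * d * m ^ 2) (d ^ 2) := by
  obtain ⟨ms, h1, h2, h3⟩ := h
  have hpos : 0 < n * d := Nat.mul_pos (by omega) (by omega)
  have h0 : (n - 1) * d ≤ n * d := Nat.mul_le_mul_right _ (by omega)
  have e0 : 16 * n * d = 16 * (n * d) := by ring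
  have hB : (n - 1) * d < 16 * n * d := by omega
  obtain ⟨ms', h4, h5, h6⟩ := subst_step hn hn2 hn2 h1 h1 h3 h3 hB
  have e : n * (n * (16 * n * d)) = 16 * n ^ 3 * d := by ring
  rw [e] at h4
  refine ⟨ms', h4, ?_, ?_⟩
  · refine le_trans ?_ h5
    have e1 : 15 * n * d = 15 * (n * d) := by ring
    have h7 : 15 * n * d ≤ 16 * n * d - (n - 1) * d := by omega
    calc 15 * n * d * m ^ 2 = m * (15 * n * d * m) := by ring
      _ ≤ ms.length * ((16 * n * d - (n - 1) * d) * ms.length) :=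
        Nat.mul_le_mul h2 (Nat.mul_le_mul h7 h2)
  · intro a
    rw [pow_two]
    exact h6 a

/-- The starting word on eight lines. -/
def w8 : List ℕ := [1, 0, 4, 3, 2, 1, 3, 2, 3, 4, 5, 3, 6, 4, 5, 3, 4, 3, 0, 2, 3, 1, 2, 3, 0, 4, 1, 3]

/-- Its marks. -/
def ms8 : List (ℕ × ℕ) := [(3, 5), (1, 3), (0, 1), (1, 4), (4, 6), (6, 7), (3, 6), (2, 3), (3, 4)]

theorem runM_w8 : runM 3 (List.range 8) w8 = some ((List.range 8).reverse, ms8) := by
  decide

theorem arr8 : Arr 8 9 9 := by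
  refine ⟨ms8, runM_spec _ _ _ _ _ runM_w8, by decide, ?_⟩
  intro a
  unfold rc
  exact le_trans (List.countP_le_length) (by decide)

/-- The sequence of arrangements. -/
theorem seq_exists (k : ℕ) : ∃ n m d : ℕ, Arr n m d ∧ Even n ∧ 2 ≤ n ∧ 1 ≤ d ∧ k < n ∧
    4 * n * d = 288 ^ (3 ^ k) ∧ d = 9 ^ (2 ^ k) ∧
    (n : ℝ) * (135 / 128 : ℝ) ^ (2 ^ k) ≤ (15 / 16 : ℝ) * m := by
  induction k with
  | zero =>
    refine ⟨8, 9, 9, arr8, by decide, by norm_num, by norm_num, by norm_num, by norm_num, by norm_num, ?_⟩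
    norm_num
  | succ k ih =>
    obtain ⟨n, m, d, h1, h2, h3, h4, h5, h6, h7, h8⟩ := ih
    refine ⟨_, _, _, h1.step h2 h3 h4, ?_, ?_, ?_, ?_, ?_, ?_, ?_⟩
    · rw [show 16 * n ^ 3 * d = 2 * (8 * n ^ 3 * d) by ring]
      exact even_two_mul _
    · have : n ≤ n ^ 3 := Nat.le_self_pow (by norm_num) n
      have h9 : n ^ 3 * 1 ≤ n ^ 3 * d := Nat.mul_le_mul_left _ h4
      have h10 : 16 * n ^ 3 * d = 16 * (n ^ 3 * d) := by ring
      omega
    · exact Nat.one_le_pow _ _ (by omega)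
    · have : n ≤ n ^ 3 := Nat.le_self_pow (by norm_num) n
      have h9 : n ^ 3 * 1 ≤ n ^ 3 * d := Nat.mul_le_mul_left _ h4
      have h10 : 16 * n ^ 3 * d = 16 * (n ^ 3 * d) := by ring
      omega
    · have e : 4 * (16 * n ^ 3 * d) * d ^ 2 = (4 * n * d) ^ 3 := by ring
      rw [e, h6, ← pow_mul, pow_succ 3 k]
    · rw [h7, ← pow_mul, pow_succ 2 k]
    · have hR : (0 : ℝ) ≤ (135 / 128 : ℝ) ^ (2 ^ k) := by positivity
      set R : ℝ := (135 / 128 : ℝ) ^ (2 ^ k) with hRdef
      have e : (135 / 128 : ℝ) ^ (2 ^ (k + 1)) = R ^ 2 := by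
        rw [hRdef, ← pow_mul, pow_succ 2 k]
      rw [e]
      push_cast
      have hn : (0 : ℝ) ≤ n := Nat.cast_nonneg _
      have hd' : (0 : ℝ) ≤ d := Nat.cast_nonneg _
      have h9 : ((n : ℝ) * R) ^ 2 ≤ ((15 / 16 : ℝ) * m) ^ 2 :=
        pow_le_pow_left₀ (by positivity) h8 2
      have h10 : (0 : ℝ) ≤ 16 * n * d := by positivity
      have h11 := mul_le_mul_of_nonneg_left h9 h10
      calc (16 : ℝ) * n ^ 3 * d * R ^ 2 = 16 * n * d * ((n : ℝ) * R) ^ 2 := by ring
        _ ≤ 16 * n * d * ((15 / 16 : ℝ) * m) ^ 2 := h11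
        _ = (15 / 16 : ℝ) * (15 * n * d * m ^ 2) := by ring

/-- **Main theorem**: arrangements of pseudolines with more than `n exp((log n)^(3/5))` crossings at the
middle position. -/
theorem main_pseudo (N0 : ℕ) : ∃ n : ℕ, N0 ≤ n ∧ Even n ∧ ∃ w : List ℕ,
    runW (List.range n) w = some (List.range n).reverse ∧
    (n : ℝ) * Real.exp ((Real.log n) ^ (3 / 5 : ℝ)) ≤ (w.count (n / 2 - 1) : ℝ) := by
  have hE : 0 < Real.log 288 := Real.log_pos (by norm_num)
  have hc : 0 < Real.log (135 / 128) := Real.log_pos (by norm_num)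
  set E := Real.log 288 with hEdef
  set c := Real.log (135 / 128) with hcdef
  obtain ⟨k₀, hk₀⟩ := pow_unbounded_of_one_lt (E ^ 3 / c ^ 5) (show (1 : ℝ) < 32 / 27 by norm_num)
  set k := max k₀ N0 with hk
  obtain ⟨n, m, d, ⟨ms, h1, h2, h3⟩, h4, h5, h6, h7, h8, -, h10⟩ := seq_exists k
  obtain ⟨w, hw, hcount⟩ := h1.to_word
  refine ⟨n, ?_, h4, w, hw, ?_⟩
  · have : N0 ≤ k := le_max_right _ _
    omega
  have hnpos : (0 : ℝ) < n := by
    have : 0 < n := by omega
    exact_mod_cast this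
  have hlogn : 0 ≤ Real.log n := Real.log_natCast_nonneg n
  -- the bound on the logarithm
  have hlog : Real.log n ≤ 3 ^ k * E := by
    have h11 : (n : ℝ) ≤ (288 : ℝ) ^ (3 ^ k) := by
      have h12 : n ≤ 4 * n * d := by
        have : n * 1 ≤ n * d := Nat.mul_le_mul_left _ h6
        have e : 4 * n * d = 4 * (n * d) := by ring
        omega
      rw [h8] at h12
      exact_mod_cast h12
    have h13 := Real.log_le_log hnpos h11
    rw [Real.log_pow] at h13
    push_cast at h13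
    exact h13
  -- the comparison of powers
  have hkk : k₀ ≤ k := le_max_left _ _
  have hpow : E ^ 3 / c ^ 5 ≤ (32 / 27 : ℝ) ^ k := by
    refine le_trans hk₀.le ?_
    exact pow_le_pow_right₀ (by norm_num) hkk
  have hcube : (Real.log n) ^ 3 ≤ ((2 : ℝ) ^ k * c) ^ 5 := by
    have h14 : (Real.log n) ^ 3 ≤ (3 ^ k * E) ^ 3 := pow_le_pow_left₀ hlogn hlog 3
    refine le_trans h14 ?_
    have hc5 : 0 < c ^ 5 := by positivity
    rw [div_le_iff₀ hc5] at hpow
    have h15 : ((3 : ℝ) ^ k * E) ^ 3 = (27 : ℝ) ^ k * E ^ 3 := by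
      rw [mul_pow, ← pow_mul, mul_comm k 3, pow_mul]
      norm_num
    have h16 : ((2 : ℝ) ^ k * c) ^ 5 = (32 : ℝ) ^ k * c ^ 5 := by
      rw [mul_pow, ← pow_mul, mul_comm k 5, pow_mul]
      norm_num
    rw [h15, h16]
    have h17 : (32 : ℝ) ^ k = (32 / 27 : ℝ) ^ k * 27 ^ k := by
      rw [← mul_pow]
      norm_num
    rw [h17]
    have h18 : (0 : ℝ) < 27 ^ k := by positivity
    calc (27 : ℝ) ^ k * E ^ 3 ≤ 27 ^ k * ((32 / 27 : ℝ) ^ k * c ^ 5) :=
          mul_le_mul_of_nonneg_left hpow h18.le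
      _ = (32 / 27 : ℝ) ^ k * 27 ^ k * c ^ 5 := by ring
  -- taking roots
  have hroot : (Real.log n) ^ (3 / 5 : ℝ) ≤ (2 : ℝ) ^ k * c := by
    have hz : 0 ≤ (2 : ℝ) ^ k * c := by positivity
    have e1 : (Real.log n) ^ (3 / 5 : ℝ) = ((Real.log n) ^ 3) ^ (1 / 5 : ℝ) := by
      rw [← Real.rpow_natCast (Real.log n) 3, ← Real.rpow_mul hlogn]
      norm_num
    have e2 : (2 : ℝ) ^ k * c = (((2 : ℝ) ^ k * c) ^ 5) ^ (1 / 5 : ℝ) := by
      rw [← Real.rpow_natCast ((2 : ℝ) ^ k * c) 5, ← Real.rpow_mul hz]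
      norm_num
    rw [e1, e2]
    exact Real.rpow_le_rpow (by positivity) hcube (by norm_num)
  have hexp : Real.exp ((Real.log n) ^ (3 / 5 : ℝ)) ≤ (135 / 128 : ℝ) ^ (2 ^ k) := by
    refine le_trans (Real.exp_le_exp.2 hroot) ?_
    have e3 : (2 : ℝ) ^ k * c = ((2 ^ k : ℕ) : ℝ) * c := by push_cast; ring
    rw [e3, Real.exp_nat_mul, hcdef, Real.exp_log (by norm_num)]
  have hm : (m : ℝ) ≤ (w.count (n / 2 - 1) : ℝ) := by
    exact_mod_cast le_trans h2 hcount
  have hm0 : (0 : ℝ) ≤ m := Nat.cast_nonneg _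
  calc (n : ℝ) * Real.exp ((Real.log n) ^ (3 / 5 : ℝ))
      ≤ n * (135 / 128 : ℝ) ^ (2 ^ k) := mul_le_mul_of_nonneg_left hexp hnpos.le
    _ ≤ (15 / 16 : ℝ) * m := h10
    _ ≤ m := by linarith
    _ ≤ _ := hm

end Vale.Agent.Lib.P065_helper23
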