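import Vale.Agent.Lib.P065_helper23.Zone2

/-!
# P065 (pseudoline arrangements): the substitution step
-/

namespace Vale.Agent.Lib.P065_helper23

theorem val_succ (x : ℕ) (ℓ : Line) : val (x + 1) ℓ = val x ℓ + ℓ.2.1 := by
  unfold val
  ring

theorem mk4_00_lt {c d c' d' : ℕ} : mk4 0 0 c d < mk4 0 0 c' d' ↔ c < c' ∨ (c = c' ∧ d < d') := by
  rw [mk4_lt]
  omega

section ZoneRun

variable {n t B dW : ℕ} {pre suf : List ℕ} {A Q : ℕ} {x : ℕ → ℕ} {msW : List (ℕ × ℕ)}

/-- The parameters of the zone of a marked step. -/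
abbrev mkP (n t B : ℕ) (pre suf : List ℕ) (A Q : ℕ) (x : ℕ → ℕ) : ZP :=
  ⟨n, t, B, pre.length, A, Q, x A + 1, (pre ++ A :: Q :: suf).idxOf, x⟩

theorem mkP_good (hnd : (pre ++ A :: Q :: suf).Nodup) (hmem : ∀ C, C ∈ pre ++ A :: Q :: suf ↔ C < n)
    (hAQ : A < Q) (hp : pre.length + 1 = n / 2) (hn : Even n) (ht2 : 2 ≤ t)
    (hX : (t - 1) * (x A + 1) < B) : (mkP n t B pre suf A Q x).Good where
  hAQ := hAQ
  hQn := (hmem Q).1 (by simp)
  hiA := idx_a hnd
  hiQ := idx_b hnd
  hne := fun C h1 h2 => idx_ne hnd h1 h2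
  hinj := fun C hC D _ h => (List.idxOf_inj ((hmem C).2 hC)).1 h
  hlow := by
    have h1 : ((Finset.range n).filter fun C => (pre ++ A :: Q :: suf).idxOf C < pre.length) =
        pre.toFinset := by
      ext C
      rw [Finset.mem_filter, Finset.mem_range, List.mem_toFinset, idx_lt_iff]
      constructor
      · exact fun h => h.2
      · exact fun h => ⟨(hmem C).1 (by simp [h]), h⟩
    show ((Finset.range n).filter fun C => (pre ++ A :: Q :: suf).idxOf C < pre.length).card = pre.length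
    rw [h1, List.toFinset_card_of_nodup (List.nodup_append.1 hnd).1]
  hX := hX
  ht := ht2
  hp := hp
  hn := hn

theorem start_run (hnd : (pre ++ A :: Q :: suf).Nodup) (hmem : ∀ C, C ∈ pre ++ A :: Q :: suf ↔ C < n)
    (G : (mkP n t B pre suf A Q x).Good) {v g : ℕ} (hv : (t - 1) * (x A + 1) ≤ v) (hvB : v < B) :
    Reach (rL t B) g (Sst n t B (pre ++ A :: Q :: suf) x) ((mkP n t B pre suf A Q x).Zm v) [] := by
  have hQne : Q ≠ A := G.Qne
  have hAQ : A < Q := G.hAQ
  refine filler (keyS (pre ++ A :: Q :: suf) x) ((mkP n t B pre suf A Q x).keyZ v false)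
    (pairwise_Sst x fun C hC => (hmem C).2 hC) (G.pairwise_Zm hv) ?_ ?_ ?_
  · intro ℓ
    rw [mem_Sst, G.mem_Zm hv hvB]
  · intro a ha b hb hne
    rw [mem_Sst] at ha hb
    exact rL_total ha hb hne
  · intro a ha b hb hr hk
    rw [mem_Sst, mem_allLines] at ha hb
    refine band_mono (banded_keyS hnd x) ((mkP n t B pre suf A Q x).banded G.Qne _ _) G.hne hk ?_
    intro ha' hb'
    unfold rL at hr
    have ha'' : a.1 = A ∨ a.1 = Q := ha'
    have hb'' : b.1 = A ∨ b.1 = Q := hb'
    rcases ha'' with ha'' | ha'' <;> rcases hb'' with hb'' | hb''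
    · rw [ZP.keyZ_A _ ha'', ZP.keyZ_A _ hb'']
      unfold keyS at hk
      rw [ha'', hb'', idx_a hnd, mk4_lt] at hk
      show zA pre.length t v false (val (x A + 1) a) a.2.1 < zA pre.length t v false (val (x A + 1) b) b.2.1
      rw [val_succ, val_succ]
      refine zA_first (by omega) ?_
      rcases lab_cases ha.2.1 ha.2.2 hr with h | ⟨_, h⟩ | ⟨_, h, h'⟩
      · omega
      · exact Or.inl h
      · refine Or.inr ⟨h.symm, ?_⟩
        unfold val
        rw [h]
        omega
    · exfalso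
      have : lab t B a < lab t B b := lab_lt_of_C ha.2.1 ha.2.2 (by rw [ha'', hb'']; exact hAQ)
      omega
    · exfalso
      unfold keyS at hk
      rw [ha'', hb'', idx_a hnd, idx_b hnd, mk4_lt] at hk
      omega
    · rw [ZP.keyZ_Q _ ha'' hQne, ZP.keyZ_Q _ hb'' hQne, zQ_lt_iff]
      have hma : a ∈ (mkP n t B pre suf A Q x).bl := (ZP.bl_mem _).2 ⟨ha'', ha.2⟩
      have hmb : b ∈ (mkP n t B pre suf A Q x).bl := (ZP.bl_mem _).2 ⟨hb'', hb.2⟩
      rw [idx_lt_iff_key (mkP n t B pre suf A Q x).bl_pairwise hma hmb, mk4_00_lt]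
      unfold keyS at hk
      rw [ha'', hb'', idx_b hnd, mk4_lt] at hk
      show val (x Q) a < val (x Q) b ∨ val (x Q) a = val (x Q) b ∧ a.2.1 < b.2.1
      omega

theorem end_run (hnd : (pre ++ A :: Q :: suf).Nodup) (hmem : ∀ C, C ∈ pre ++ A :: Q :: suf ↔ C < n)
    (G : (mkP n t B pre suf A Q x).Good) {v g : ℕ} (hv : (t - 1) * (x A + 1) ≤ v) (hvB : v < B) :
    Reach (rL t B) g ((mkP n t B pre suf A Q x).Zp v)
      (Sst n t B (pre ++ Q :: A :: suf) (Function.update x A (x A + 1))) [] := by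
  have hQne : Q ≠ A := G.Qne
  have hAQ : A < Q := G.hAQ
  have hnd' := nodup_swap hnd
  have hxa : Function.update x A (x A + 1) A = x A + 1 := Function.update_self _ _ _
  have hxq : Function.update x A (x A + 1) Q = x Q := Function.update_of_ne hQne _ _
  refine filler ((mkP n t B pre suf A Q x).keyZ v true) (keyS (pre ++ Q :: A :: suf) _)
    (G.pairwise_Zp hv) (pairwise_Sst _ fun C hC => (mem_swap C).2 ((hmem C).2 hC)) ?_ ?_ ?_
  · intro ℓ
    rw [mem_Sst, G.mem_Zp hv hvB]
  · intro a ha b hb hne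
    rw [G.mem_Zp hv hvB] at ha hb
    exact rL_total ha hb hne
  · intro a ha b hb hr hk
    rw [G.mem_Zp hv hvB, mem_allLines] at ha hb
    refine band_mono ((mkP n t B pre suf A Q x).banded G.Qne _ _)
      (banded_keyS' hnd fun C h _ => Function.update_of_ne h _ _) G.hne hk ?_
    intro ha' hb'
    unfold rL at hr
    have ha'' : a.1 = A ∨ a.1 = Q := ha'
    have hb'' : b.1 = A ∨ b.1 = Q := hb'
    rcases ha'' with ha'' | ha'' <;> rcases hb'' with hb'' | hb''
    · rw [ZP.keyZ_A _ ha'', ZP.keyZ_A _ hb''] at hk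
      have h1 := zA_last (p := pre.length) (t := t) (v := v) (ux := val (x A + 1) a)
        (uy := val (x A + 1) b) (mx := a.2.1) (my := b.2.1) hb.2.1 ?_ hk
      · unfold keyS
        rw [ha'', hb'', idx_b hnd', hxa, mk4_lt]
        omega
      · rcases lab_cases ha.2.1 ha.2.2 hr with h | ⟨_, h⟩ | ⟨_, h, h'⟩
        · omega
        · exact Or.inl h
        · refine Or.inr ⟨h.symm, ?_⟩
          unfold val
          rw [h]
          omega
    · exfalso
      have : lab t B a < lab t B b := lab_lt_of_C ha.2.1 ha.2.2 (by rw [ha'', hb'']; exact hAQ)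
      omega
    · unfold keyS
      rw [ha'', hb'', idx_b hnd', idx_a hnd', mk4_lt]
      omega
    · rw [ZP.keyZ_Q _ ha'' hQne, ZP.keyZ_Q _ hb'' hQne, zQ_lt_iff] at hk
      have hma : a ∈ (mkP n t B pre suf A Q x).bl := (ZP.bl_mem _).2 ⟨ha'', ha.2⟩
      have hmb : b ∈ (mkP n t B pre suf A Q x).bl := (ZP.bl_mem _).2 ⟨hb'', hb.2⟩
      rw [idx_lt_iff_key (mkP n t B pre suf A Q x).bl_pairwise hma hmb, mk4_00_lt] at hk
      have hk' : val (x Q) a < val (x Q) b ∨ val (x Q) a = val (x Q) b ∧ a.2.1 < b.2.1 := hk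
      unfold keyS
      rw [ha'', hb'', idx_a hnd', hxq, mk4_lt]
      omega

/-- **Zone of a marked step.** -/
theorem zone_run (hnd : (pre ++ A :: Q :: suf).Nodup) (hmem : ∀ C, C ∈ pre ++ A :: Q :: suf ↔ C < n)
    (hAQ : A < Q) (hp : pre.length + 1 = n / 2) (hn : Even n) (ht2 : 2 ≤ t)
    (hX : (t - 1) * (x A + 1) < B)
    (hW : Reach (· < ·) (t / 2 - 1) (List.range t) (List.range t).reverse msW)
    (hdW : ∀ a, rc msW a ≤ dW) :
    ∃ ms, Reach (rL t B) (n * (t * B) / 2 - 1) (Sst n t B (pre ++ A :: Q :: suf) x)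
        (Sst n t B (pre ++ Q :: A :: suf) (Function.update x A (x A + 1))) ms ∧
      (B - (t - 1) * (x A + 1)) * msW.length ≤ ms.length ∧
      ∀ ℓ : Line, rc ms ℓ ≤ if ℓ.1 = A then dW else 0 := by
  have G := mkP_good (t := t) (B := B) (x := x) hnd hmem hAQ hp hn ht2 hX
  have hj : (t - 1) * (x A + 1) + (B - 1 - (t - 1) * (x A + 1)) < B := by omega
  obtain ⟨ms, h1, h2, h3⟩ := G.chain (msW := msW) (dW := dW) hW hdW (B - 1 - (t - 1) * (x A + 1)) hj
  have h4 := start_run (g := n * (t * B) / 2 - 1) hnd hmem G (v := (t - 1) * (x A + 1) + (B - 1 - (t - 1) * (x A + 1)))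
    (by omega) hj
  have h5 := end_run (g := n * (t * B) / 2 - 1) hnd hmem G (v := (t - 1) * (x A + 1)) le_rfl (by omega)
  refine ⟨_, h4.trans (h1.trans h5), ?_, ?_⟩
  · simp only [List.nil_append, List.length_append, List.length_nil, add_zero]
    rw [h2]
    have : B - 1 - (t - 1) * (x A + 1) + 1 = B - (t - 1) * (x A + 1) := by omega
    rw [this]
  · intro ℓ
    simp only [List.nil_append, rc_append, rc_nil, add_zero]
    refine le_trans (h3 ℓ) ?_
    split_ifs <;> first | omega | simp_all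

end ZoneRun

/-- **The outer induction.** -/
theorem outer_run {n t B dW d : ℕ} {msW : List (ℕ × ℕ)} (hn : Even n) (hn2 : 2 ≤ n) (ht2 : 2 ≤ t)
    (hW : Reach (· < ·) (t / 2 - 1) (List.range t) (List.range t).reverse msW)
    (hdW : ∀ a, rc msW a ≤ dW) (hB : (t - 1) * d < B) {l l'' : List ℕ} {msT : List (ℕ × ℕ)}
    (h : Reach (· < ·) (n / 2 - 1) l l'' msT) :
    l.Nodup → (∀ C, C ∈ l ↔ C < n) → ∀ x : ℕ → ℕ, (∀ a, x a + rc msT a ≤ d) →
      ∃ (x' : ℕ → ℕ) (ms' : List (Line × Line)),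
        Reach (rL t B) (n * (t * B) / 2 - 1) (Sst n t B l x) (Sst n t B l'' x') ms' ∧
        msT.length * ((B - (t - 1) * d) * msW.length) ≤ ms'.length ∧
        ∀ ℓ : Line, rc ms' ℓ ≤ rc msT ℓ.1 * dW := by
  induction h with
  | refl l =>
    intro _ _ x _
    exact ⟨x, [], Reach.refl _, by simp, by simp⟩
  | swap pre a b suf l' ms hr _ ih =>
    intro hnd hmem x hx
    obtain ⟨x', ms', h1, h2, h3⟩ := ih (nodup_swap hnd)
      (fun C => by rw [mem_swap]; exact hmem C) x hx
    exact ⟨x', ms', (swap_run x hr hnd fun C hC => (hmem C).2 hC).trans h1, h2, h3⟩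
  | mark pre a b suf l' ms hr hp _ ih =>
    intro hnd hmem x hx
    have hxa : x a + 1 + rc ms a ≤ d := by
      have := hx a
      rw [rc_cons] at this
      simp only [↓reduceIte] at this
      omega
    have hX : (t - 1) * (x a + 1) ≤ (t - 1) * d := Nat.mul_le_mul_left _ (by omega)
    obtain ⟨ms₀, h1, h2, h3⟩ := zone_run (x := x) (B := B) hnd hmem hr (by omega) hn ht2 (by omega) hW hdW
    obtain ⟨x', ms', h4, h5, h6⟩ := ih (nodup_swap hnd)
      (fun C => by rw [mem_swap]; exact hmem C) (Function.update x a (x a + 1)) (by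
        intro c
        by_cases hc : c = a
        · subst hc
          rw [Function.update_self]
          exact hxa
        · rw [Function.update_of_ne hc]
          have := hx c
          rw [rc_cons] at this
          omega)
    refine ⟨x', ms₀ ++ ms', h1.trans h4, ?_, ?_⟩
    · rw [List.length_append, List.length_cons]
      have h7 : (B - (t - 1) * d) * msW.length ≤ (B - (t - 1) * (x a + 1)) * msW.length :=
        Nat.mul_le_mul_right _ (by omega)
      rw [add_mul, one_mul]
      omega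
    · intro ℓ
      rw [rc_append, rc_cons, add_mul]
      have h8 := h3 ℓ
      have h9 := h6 ℓ
      by_cases hc : ℓ.1 = a
      · rw [if_pos hc] at h8
        rw [if_pos hc.symm]
        omega
      · rw [if_neg hc] at h8
        rw [if_neg (Ne.symm hc)]
        omega

end Vale.Agent.Lib.P065_helper23
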