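import Vale.Agent.Lib.P065_helper23.Step

/-!
# P065 (pseudoline arrangements): the substitution theorem on natural labels
-/

namespace Vale.Agent.Lib.P065_helper23

section

variable {n t B : ℕ}

theorem lab_mem {ℓ : Line} (h : ℓ ∈ allLines n t B) : lab t B ℓ < n * (t * B) := by
  rw [mem_allLines] at h
  exact lab_lt_card h.1 h.2.1 h.2.2

theorem lab_injOn {a b : Line} (ha : a ∈ allLines n t B) (hb : b ∈ allLines n t B)
    (h : lab t B a = lab t B b) : a = b := by
  rw [mem_allLines] at ha hb
  exact lab_inj ha.2.1 ha.2.2 hb.2.1 hb.2.2 h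

theorem card_allLines : (allLines n t B).card = n * (t * B) := by
  simp [allLines]

theorem lab_surj {c : ℕ} (hc : c < n * (t * B)) : ∃ ℓ ∈ allLines n t B, lab t B ℓ = c := by
  have h1 : (allLines n t B).image (lab t B) = Finset.range (n * (t * B)) := by
    apply Finset.eq_of_subset_of_card_le
    · intro y hy
      obtain ⟨ℓ, hℓ, rfl⟩ := Finset.mem_image.1 hy
      exact Finset.mem_range.2 (lab_mem hℓ)
    · rw [Finset.card_image_of_injOn, card_allLines, Finset.card_range]
      intro a ha b hb h
      exact lab_injOn ha hb h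
  have h2 : c ∈ (allLines n t B).image (lab t B) := by
    rw [h1]
    exact Finset.mem_range.2 hc
  obtain ⟨ℓ, hℓ, h3⟩ := Finset.mem_image.1 h2
  exact ⟨ℓ, hℓ, h3⟩

variable (n t B)

/-- The lines in increasing order of labels. -/
noncomputable def baseL : List Line := sortL (fun ℓ => mk4 0 0 0 (lab t B ℓ)) (allLines n t B)

/-- The lines in decreasing order of labels. -/
noncomputable def topL : List Line :=
  sortL (fun ℓ => mk4 0 0 0 (n * (t * B) - lab t B ℓ)) (allLines n t B)

variable {n t B}

theorem pairwise_baseL :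
    (baseL n t B).Pairwise fun a b => mk4 0 0 0 (lab t B a) < mk4 0 0 0 (lab t B b) := by
  refine pairwise_sortL ?_
  intro a ha b hb h
  exact lab_injOn ha hb (mk4_inj h).2.2.2

theorem pairwise_topL : (topL n t B).Pairwise fun a b =>
    mk4 0 0 0 (n * (t * B) - lab t B a) < mk4 0 0 0 (n * (t * B) - lab t B b) := by
  refine pairwise_sortL ?_
  intro a ha b hb h
  have h1 := (mk4_inj h).2.2.2
  have h2 := lab_mem ha
  have h3 := lab_mem hb
  exact lab_injOn ha hb (by omega)

theorem map_baseL : (baseL n t B).map (lab t B) = List.range (n * (t * B)) := by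
  have hp : ((baseL n t B).map (lab t B)).Pairwise (· < ·) := by
    rw [List.pairwise_map]
    refine pairwise_baseL.imp ?_
    intro a b h
    rw [mk4_lt] at h
    omega
  have hq : (List.range (n * (t * B))).Pairwise (· < ·) := List.pairwise_lt_range
  refine List.Perm.eq_of_pairwise (le := (· < ·)) ?_ hp hq ?_
  · intro a b _ _ h1 h2
    omega
  · refine (List.perm_ext_iff_of_nodup (hp.imp (ne_of_lt)) (hq.imp (ne_of_lt))).2 ?_
    intro c
    rw [List.mem_range, List.mem_map]
    constructor
    · rintro ⟨ℓ, hℓ, rfl⟩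
      exact lab_mem (mem_sortL.1 hℓ)
    · intro hc
      obtain ⟨ℓ, hℓ, h⟩ := lab_surj hc
      exact ⟨ℓ, mem_sortL.2 hℓ, h⟩

theorem map_topL : (topL n t B).map (lab t B) = (List.range (n * (t * B))).reverse := by
  have hp : ((topL n t B).map (lab t B)).Pairwise (· > ·) := by
    rw [List.pairwise_map]
    refine pairwise_topL.imp_of_mem ?_
    intro a b ha hb h
    rw [mk4_lt] at h
    have h2 := lab_mem (mem_sortL.1 ha)
    have h3 := lab_mem (mem_sortL.1 hb)
    show lab t B b < lab t B a
    omega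
  have hq : ((List.range (n * (t * B))).reverse).Pairwise (· > ·) := by
    rw [List.pairwise_reverse]
    exact List.pairwise_lt_range
  refine List.Perm.eq_of_pairwise (le := (· > ·)) ?_ hp hq ?_
  · intro a b _ _ h1 h2
    omega
  · refine (List.perm_ext_iff_of_nodup (hp.imp (ne_of_gt)) (hq.imp (ne_of_gt))).2 ?_
    intro c
    rw [List.mem_reverse, List.mem_range, List.mem_map]
    constructor
    · rintro ⟨ℓ, hℓ, rfl⟩
      exact lab_mem (mem_sortL.1 hℓ)
    · intro hc
      obtain ⟨ℓ, hℓ, h⟩ := lab_surj hc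
      exact ⟨ℓ, mem_sortL.2 hℓ, h⟩

theorem base_run {g : ℕ} {π : List ℕ} {x : ℕ → ℕ} (hπ : ∀ C, C < n → C ∈ π) :
    Reach (rL t B) g (baseL n t B) (Sst n t B π x) [] := by
  refine filler (fun ℓ => mk4 0 0 0 (lab t B ℓ)) (keyS π x) pairwise_baseL (pairwise_Sst x hπ) ?_ ?_ ?_
  · intro ℓ
    rw [mem_Sst]
    exact mem_sortL
  · intro a ha b hb hne
    exact rL_total (mem_sortL.1 ha) (mem_sortL.1 hb) hne
  · intro a _ b _ hr hk
    exfalso
    rw [mk4_lt] at hk
    unfold rL at hr
    omega

theorem top_run {g : ℕ} {π : List ℕ} {x : ℕ → ℕ} (hπ : ∀ C, C < n → C ∈ π) :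
    Reach (rL t B) g (Sst n t B π x) (topL n t B) [] := by
  refine filler (keyS π x) (fun ℓ => mk4 0 0 0 (n * (t * B) - lab t B ℓ)) (pairwise_Sst x hπ)
    pairwise_topL ?_ ?_ ?_
  · intro ℓ
    rw [mem_Sst]
    exact mem_sortL.symm
  · intro a ha b hb hne
    exact rL_total (mem_Sst.1 ha) (mem_Sst.1 hb) hne
  · intro a ha b _ hr _
    have h1 := lab_mem (mem_Sst.1 ha)
    unfold rL at hr
    rw [mk4_lt]
    omega

end

/-- **The substitution theorem.** -/
theorem subst_step {n t B d dW : ℕ} {msT msW : List (ℕ × ℕ)} (hn : Even n) (hn2 : 2 ≤ n) (ht2 : 2 ≤ t)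
    (hT : Reach (· < ·) (n / 2 - 1) (List.range n) (List.range n).reverse msT)
    (hW : Reach (· < ·) (t / 2 - 1) (List.range t) (List.range t).reverse msW)
    (hd : ∀ a, rc msT a ≤ d) (hdW : ∀ a, rc msW a ≤ dW) (hB : (t - 1) * d < B) :
    ∃ ms, Reach (· < ·) (n * (t * B) / 2 - 1) (List.range (n * (t * B)))
        (List.range (n * (t * B))).reverse ms ∧
      msT.length * ((B - (t - 1) * d) * msW.length) ≤ ms.length ∧
      ∀ a, rc ms a ≤ d * dW := by
  obtain ⟨x', ms', h1, h2, h3⟩ := outer_run hn hn2 ht2 hW hdW hB hT List.nodup_range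
    (fun C => List.mem_range) (fun _ => 0) (fun a => by simpa using hd a)
  have h4 := (base_run (t := t) (B := B) (n := n) (g := n * (t * B) / 2 - 1) (π := List.range n)
    (x := fun _ => 0) (fun C hC => List.mem_range.2 hC)).trans (h1.trans
    (top_run (π := (List.range n).reverse) (x := x')
      (fun C hC => List.mem_reverse.2 (List.mem_range.2 hC))))
  simp only [List.nil_append, List.append_nil] at h4
  have h5 := Reach.lift (r' := (· < ·)) (g' := n * (t * B) / 2 - 1) (lab t B) h4
    (fun a _ b _ h => h) [] [] (by simp)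
  simp only [List.nil_append, List.append_nil, map_baseL, map_topL] at h5
  refine ⟨_, h5, by simpa using h2, ?_⟩
  intro c
  by_cases hc : c < n * (t * B)
  · obtain ⟨ℓ, hℓ, rfl⟩ := lab_surj hc
    have h6 : rc (ms'.map (Prod.map (lab t B) (lab t B))) (lab t B ℓ) ≤ rc ms' ℓ := by
      unfold rc
      rw [List.countP_map]
      refine List.countP_mono_left ?_
      intro q hq h7
      simp only [Function.comp, Prod.map, decide_eq_true_eq] at h7 ⊢
      have h8 := (h4.mark_mem q hq).1
      exact lab_injOn (mem_sortL.1 h8) hℓ h7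
    have h9 := h3 ℓ
    have h10 : rc msT ℓ.1 * dW ≤ d * dW := Nat.mul_le_mul_right _ (hd _)
    omega
  · have h6 : rc (ms'.map (Prod.map (lab t B) (lab t B))) c = 0 := by
      unfold rc
      rw [List.countP_map, List.countP_eq_zero]
      intro q hq h7
      simp only [Function.comp, Prod.map, decide_eq_true_eq] at h7
      have h8 := (h4.mark_mem q hq).1
      have h9 := lab_mem (mem_sortL.1 h8)
      omega
    omega

end Vale.Agent.Lib.P065_helper23
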