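import Vale.Agent.Lib.P065_helper23.Band

/-!
# P065 (pseudoline arrangements): the zone of a marked step of the outer arrangement
-/

namespace Vale.Agent.Lib.P065_helper23

/-- Key of a line of the rising bundle. -/
def zA (p t v : ℕ) (σ : Bool) (u m : ℕ) : K4 :=
  if u < v then mk4 p 0 u (t - 1 - m)
  else if u = v then mk4 p 2 0 (if σ then m else t - 1 - m)
  else mk4 p 4 u m

/-- Key of a line of the other bundle. -/
def zQ (p y r : ℕ) : K4 := if r < y then mk4 p 1 r 0 else mk4 p 3 r 0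

theorem zA_lt_of_lt {p t v : ℕ} {σ : Bool} {u u' m m' : ℕ} (h : u < u') :
    zA p t v σ u m < zA p t v σ u' m' := by
  unfold zA
  split_ifs <;> rw [mk4_lt] <;> omega

theorem zQ_lt_iff {p y r r' : ℕ} : zQ p y r < zQ p y r' ↔ r < r' := by
  unfold zQ
  split_ifs <;> rw [mk4_lt] <;> omega

theorem zA_inj {p t v : ℕ} {σ : Bool} {u u' m m' : ℕ} (hm : m < t) (hm' : m' < t)
    (h : zA p t v σ u m = zA p t v σ u' m') : u = u' ∧ m = m' := by
  unfold zA at h
  split_ifs at h <;> (obtain ⟨h1, h2, h3, h4⟩ := mk4_inj h; omega)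

theorem zA_ne_zQ {p p' t v y r u m : ℕ} {σ : Bool} : zA p t v σ u m ≠ zQ p' y r := by
  intro h
  unfold zA zQ at h
  split_ifs at h <;> (obtain ⟨h1, h2, h3, h4⟩ := mk4_inj h; omega)

theorem zA_ne_mk4 {p t v u m j c d e : ℕ} {σ : Bool} (hj : j ≠ p) : zA p t v σ u m ≠ mk4 j c d e := by
  intro h
  unfold zA at h
  split_ifs at h <;> (obtain ⟨h1, h2, h3, h4⟩ := mk4_inj h; omega)

theorem zQ_ne_mk4 {p y r j c d e : ℕ} (hj : j ≠ p) : zQ p y r ≠ mk4 j c d e := by
  intro h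
  unfold zQ at h
  split_ifs at h <;> (obtain ⟨h1, h2, h3, h4⟩ := mk4_inj h; omega)

/-- Check between consecutive blocks. -/
theorem zA_step {p t v ux uy mx my : ℕ} (hm : my < t) (h : mx < my ∨ (mx = my ∧ uy < ux))
    (hk : zA p t (v + 1) true ux mx < zA p t (v + 1) true uy my) :
    zA p t v false ux mx < zA p t v false uy my := by
  unfold zA at hk ⊢
  simp only [↓reduceIte, Bool.false_eq_true] at hk ⊢
  split_ifs at hk ⊢ <;> rw [mk4_lt] at hk ⊢ <;> omega

/-- Check at the start. -/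
theorem zA_first {p t v wx wy mx my : ℕ} {σ : Bool} (hk : wx < wy ∨ (wx = wy ∧ mx < my))
    (h : mx < my ∨ (mx = my ∧ wy < wx)) :
    zA p t v σ (wx + mx) mx < zA p t v σ (wy + my) my := by
  apply zA_lt_of_lt
  omega

/-- Check at the end. -/
theorem zA_last {p t v ux uy mx my : ℕ} (hm : my < t) (h : mx < my ∨ (mx = my ∧ uy < ux))
    (hk : zA p t v true ux mx < zA p t v true uy my) : ux < uy ∨ (ux = uy ∧ mx < my) := by
  unfold zA at hk
  simp only [↓reduceIte] at hk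
  split_ifs at hk <;> rw [mk4_lt] at hk <;> omega

/-- Check of the two bundles between consecutive blocks. -/
theorem zQ_zA_step {p t v y y' r u m : ℕ}
    (hk : zQ p y r < zA p t (v + 1) true u m) : zQ p y' r < zA p t v false u m := by
  unfold zQ zA at hk ⊢
  simp only [↓reduceIte, Bool.false_eq_true] at hk ⊢
  split_ifs at hk ⊢ <;> rw [mk4_lt] at hk ⊢ <;> omega

theorem idx_lt_iff_key {l : List Line} {k : Line → K4} (hl : l.Pairwise fun a b => k a < k b)
    {a b : Line} (ha : a ∈ l) (hb : b ∈ l) : l.idxOf a < l.idxOf b ↔ k a < k b := by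
  have hga := List.idxOf_lt_length_iff.2 ha
  have hgb := List.idxOf_lt_length_iff.2 hb
  have hp := List.pairwise_iff_getElem.1 hl
  constructor
  · intro h
    have := hp _ _ hga hgb h
    rwa [List.getElem_idxOf, List.getElem_idxOf] at this
  · intro h
    by_contra hc
    rcases lt_or_eq_of_le (not_lt.1 hc) with h' | h'
    · have := hp _ _ hgb hga h'
      rw [List.getElem_idxOf, List.getElem_idxOf] at this
      exact lt_asymm h this
    · have : b = a := (List.idxOf_inj hb).1 h'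
      subst this
      exact lt_irrefl _ h

theorem mem_take_iff_idx {l : List Line} (hl : l.Nodup) {y : ℕ} {a : Line} :
    a ∈ l.take y ↔ a ∈ l ∧ l.idxOf a < y := by
  constructor
  · intro h
    refine ⟨List.mem_of_mem_take h, ?_⟩
    rcases List.mem_take_iff_getElem.1 h with ⟨j, hj, rfl⟩
    have hj' : j < l.length := by omega
    rw [hl.idxOf_getElem j hj']
    omega
  · rintro ⟨hm, hi⟩
    rw [List.mem_take_iff_getElem]
    have h1 := List.idxOf_lt_length_iff.2 hm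
    exact ⟨l.idxOf a, by omega, List.getElem_idxOf h1⟩

theorem mk4_zero_le_aux {p j : ℕ} : mk4 p 2 0 0 ≤ mk4 p 2 0 j := by
  refine not_lt.1 ?_
  rw [mk4_lt]
  omega

theorem mk4_le_aux {p c c' d e : ℕ} (h : c ≤ c') : mk4 p c 0 0 ≤ mk4 p c' d e := by
  refine not_lt.1 ?_
  rw [mk4_lt]
  omega

theorem if_neg' {α : Type} {a b : ℕ} {x y : α} (h : a ≠ b) : (if a = b then x else y) = y := if_neg h

/-- Parameters of a zone. -/
structure ZP where
  n : ℕ
  t : ℕ
  B : ℕ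
  p : ℕ
  A : ℕ
  Q : ℕ
  X : ℕ
  i : ℕ → ℕ
  x : ℕ → ℕ

namespace ZP

variable (P : ZP)

/-- The second bundle in its order. -/
noncomputable def bl : List Line := bd P.t P.B P.Q (P.x P.Q)

/-- Number of lines of the first bundle below a value. -/
noncomputable def cnt (v : ℕ) : ℕ := ((linesOf P.t P.B P.A).filter fun ℓ => val P.X ℓ < v).card

/-- Number of lines of the second bundle before the block. -/
noncomputable def yv (v : ℕ) : ℕ := P.t * P.B - P.t / 2 - P.cnt v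

/-- The key. -/
noncomputable def keyZ (v : ℕ) (σ : Bool) (ℓ : Line) : K4 :=
  if ℓ.1 = P.A then zA P.p P.t v σ (val P.X ℓ) ℓ.2.1
  else if ℓ.1 = P.Q then zQ P.p (P.yv v) (P.bl.idxOf ℓ)
  else mk4 (P.i ℓ.1) 0 (val (P.x ℓ.1) ℓ) ℓ.2.1

theorem keyZ_A {v : ℕ} {σ : Bool} {ℓ : Line} (h : ℓ.1 = P.A) :
    P.keyZ v σ ℓ = zA P.p P.t v σ (val P.X ℓ) ℓ.2.1 := if_pos h

theorem keyZ_Q {v : ℕ} {σ : Bool} {ℓ : Line} (h : ℓ.1 = P.Q) (hne : P.Q ≠ P.A) :
    P.keyZ v σ ℓ = zQ P.p (P.yv v) (P.bl.idxOf ℓ) := by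
  unfold keyZ
  rw [if_neg (by rw [h]; exact hne), if_pos h]

theorem keyZ_O {v : ℕ} {σ : Bool} {ℓ : Line} (h : ℓ.1 ≠ P.A) (h' : ℓ.1 ≠ P.Q) :
    P.keyZ v σ ℓ = mk4 (P.i ℓ.1) 0 (val (P.x ℓ.1) ℓ) ℓ.2.1 := by
  unfold keyZ
  rw [if_neg h, if_neg h']

theorem zA_lo {p t v u m : ℕ} {σ : Bool} : mk4 p 0 0 0 ≤ zA p t v σ u m := by
  unfold zA
  split_ifs <;> exact mk4_zero_le le_rfl

theorem zA_hi {p t v u m : ℕ} {σ : Bool} : zA p t v σ u m < mk4 (p + 2) 0 0 0 := by
  unfold zA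
  split_ifs <;> rw [mk4_lt] <;> omega

theorem zQ_lo {p y r : ℕ} : mk4 p 0 0 0 ≤ zQ p y r := by
  unfold zQ
  split_ifs <;> exact mk4_zero_le le_rfl

theorem zQ_hi {p y r : ℕ} : zQ p y r < mk4 (p + 2) 0 0 0 := by
  unfold zQ
  split_ifs <;> rw [mk4_lt] <;> omega

theorem banded (hne : P.Q ≠ P.A) (v : ℕ) (σ : Bool) : Banded P.A P.Q P.p P.i P.x (P.keyZ v σ) where
  out ℓ h h' := P.keyZ_O h h'
  lo ℓ h := by
    rcases h with h | h
    · rw [P.keyZ_A h]; exact zA_lo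
    · rw [P.keyZ_Q h hne]; exact zQ_lo
  hi ℓ h := by
    rcases h with h | h
    · rw [P.keyZ_A h]; exact zA_hi
    · rw [P.keyZ_Q h hne]; exact zQ_hi

theorem keyZ_indep {v : ℕ} {ℓ : Line} (h : ¬ (ℓ.1 = P.A ∧ val P.X ℓ = v)) :
    P.keyZ v true ℓ = P.keyZ v false ℓ := by
  unfold keyZ
  split_ifs with h1
  · unfold zA
    have h2 : val P.X ℓ ≠ v := fun h3 => h ⟨h1, h3⟩
    simp [h2]
  · rfl
  · rfl

theorem bl_mem {ℓ : Line} : ℓ ∈ P.bl ↔ ℓ.1 = P.Q ∧ ℓ.2.1 < P.t ∧ ℓ.2.2 < P.B := mem_bd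

theorem bl_pairwise :
    P.bl.Pairwise fun a b => mk4 0 0 (val (P.x P.Q) a) a.2.1 < mk4 0 0 (val (P.x P.Q) b) b.2.1 :=
  pairwise_bd _ _ _ _

theorem bl_nodup : P.bl.Nodup :=
  P.bl_pairwise.imp fun h => ne_of_apply_ne (fun ℓ : Line => mk4 0 0 (val (P.x P.Q) ℓ) ℓ.2.1) (ne_of_lt h)

theorem bl_length : P.bl.length = P.t * P.B := length_bd _ _ _ _

/-- Conditions on the parameters. -/
structure Good : Prop where
  hAQ : P.A < P.Q
  hQn : P.Q < P.n
  hiA : P.i P.A = P.p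
  hiQ : P.i P.Q = P.p + 1
  hne : ∀ C, C ≠ P.A → C ≠ P.Q → P.i C ≠ P.p ∧ P.i C ≠ P.p + 1
  hinj : ∀ C, C < P.n → ∀ D, D < P.n → P.i C = P.i D → C = D
  hlow : ((Finset.range P.n).filter fun C => P.i C < P.p).card = P.p
  hX : (P.t - 1) * P.X < P.B
  ht : 2 ≤ P.t
  hp : P.p + 1 = P.n / 2
  hn : Even P.n

variable {P}

theorem Good.Qne (G : P.Good) : P.Q ≠ P.A := by
  have := G.hAQ
  omega

theorem Good.keyZ_inj (G : P.Good) {v : ℕ} {σ : Bool} {a b : Line}
    (ha : a ∈ allLines P.n P.t P.B) (hb : b ∈ allLines P.n P.t P.B)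
    (h : P.keyZ v σ a = P.keyZ v σ b) : a = b := by
  rw [mem_allLines] at ha hb
  have hval : ∀ {y : ℕ} {a b : Line}, a.1 = b.1 → a.2.1 = b.2.1 → val y a = val y b → a = b := by
    intro y a b h1 h2 h3
    have h4 : a.2.2 = b.2.2 := by
      unfold val at h3
      rw [h2] at h3
      omega
    exact Prod.ext h1 (Prod.ext h2 h4)
  by_cases h1 : a.1 = P.A
  · by_cases h2 : b.1 = P.A
    · rw [P.keyZ_A h1, P.keyZ_A h2] at h
      obtain ⟨h3, h4⟩ := zA_inj ha.2.1 hb.2.1 h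
      exact hval (h1.trans h2.symm) h4 h3
    · by_cases h3 : b.1 = P.Q
      · rw [P.keyZ_A h1, P.keyZ_Q h3 G.Qne] at h
        exact absurd h zA_ne_zQ
      · rw [P.keyZ_A h1, P.keyZ_O h2 h3] at h
        exact absurd h (zA_ne_mk4 (G.hne _ h2 h3).1)
  · by_cases h2 : a.1 = P.Q
    · by_cases h3 : b.1 = P.A
      · rw [P.keyZ_Q h2 G.Qne, P.keyZ_A h3] at h
        exact absurd h.symm zA_ne_zQ
      · by_cases h4 : b.1 = P.Q
        · rw [P.keyZ_Q h2 G.Qne, P.keyZ_Q h4 G.Qne] at h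
          unfold zQ at h
          have h5 : P.bl.idxOf a = P.bl.idxOf b := by
            split_ifs at h <;> (obtain ⟨_, _, h6, _⟩ := mk4_inj h; omega)
          have hm : a ∈ P.bl := P.bl_mem.2 ⟨h2, ha.2⟩
          exact (List.idxOf_inj hm).1 h5
        · rw [P.keyZ_Q h2 G.Qne, P.keyZ_O h3 h4] at h
          exact absurd h (zQ_ne_mk4 (G.hne _ h3 h4).1)
    · by_cases h3 : b.1 = P.A
      · rw [P.keyZ_O h1 h2, P.keyZ_A h3] at h
        exact absurd h.symm (zA_ne_mk4 (G.hne _ h1 h2).1)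
      · by_cases h4 : b.1 = P.Q
        · rw [P.keyZ_O h1 h2, P.keyZ_Q h4 G.Qne] at h
          exact absurd h.symm (zQ_ne_mk4 (G.hne _ h1 h2).1)
        · rw [P.keyZ_O h1 h2, P.keyZ_O h3 h4] at h
          obtain ⟨h5, -, h6, h7⟩ := mk4_inj h
          have h8 : a.1 = b.1 := G.hinj _ ha.1 _ hb.1 h5
          rw [h8] at h6
          exact hval h8 h7 h6

variable (P) in
/-- The lines before the block. -/
noncomputable def below (v : ℕ) : List Line :=
  sortL (P.keyZ v false) ((allLines P.n P.t P.B).filter fun ℓ => P.keyZ v false ℓ < mk4 P.p 2 0 0)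

variable (P) in
/-- The lines after the block. -/
noncomputable def above (v : ℕ) : List Line :=
  sortL (P.keyZ v false) ((allLines P.n P.t P.B).filter fun ℓ => mk4 P.p 3 0 0 ≤ P.keyZ v false ℓ)

variable (P) in
/-- The lines of the block. -/
def phi (v j : ℕ) : Line := (P.A, P.t - 1 - j, v - (P.t - 1 - j) * P.X)

variable (P) in
/-- The state before the block is worked on. -/
noncomputable def Zm (v : ℕ) : List Line :=
  P.below v ++ (List.range P.t).map (P.phi v) ++ P.above v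

variable (P) in
/-- The state after the block is worked on. -/
noncomputable def Zp (v : ℕ) : List Line :=
  P.below v ++ (List.range P.t).reverse.map (P.phi v) ++ P.above v

theorem mem_below {v : ℕ} {ℓ : Line} :
    ℓ ∈ P.below v ↔ ℓ ∈ allLines P.n P.t P.B ∧ P.keyZ v false ℓ < mk4 P.p 2 0 0 := by
  unfold below
  rw [mem_sortL, Finset.mem_filter]

theorem mem_above {v : ℕ} {ℓ : Line} :
    ℓ ∈ P.above v ↔ ℓ ∈ allLines P.n P.t P.B ∧ mk4 P.p 3 0 0 ≤ P.keyZ v false ℓ := by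
  unfold above
  rw [mem_sortL, Finset.mem_filter]

theorem Good.pairwise_below (G : P.Good) (v : ℕ) :
    (P.below v).Pairwise fun a b => P.keyZ v false a < P.keyZ v false b := by
  refine pairwise_sortL ?_
  intro a ha b hb h
  rw [Finset.mem_filter] at ha hb
  exact G.keyZ_inj ha.1 hb.1 h

theorem Good.pairwise_above (G : P.Good) (v : ℕ) :
    (P.above v).Pairwise fun a b => P.keyZ v false a < P.keyZ v false b := by
  refine pairwise_sortL ?_
  intro a ha b hb h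
  rw [Finset.mem_filter] at ha hb
  exact G.keyZ_inj ha.1 hb.1 h

theorem keyZ_block {v : ℕ} {σ : Bool} {ℓ : Line} (h : ℓ.1 = P.A) (hu : val P.X ℓ = v) :
    P.keyZ v σ ℓ = mk4 P.p 2 0 (if σ then ℓ.2.1 else P.t - 1 - ℓ.2.1) := by
  rw [P.keyZ_A h, hu]
  unfold zA
  simp

theorem below_not {v : ℕ} {ℓ : Line} (h : ℓ ∈ P.below v) : ¬ (ℓ.1 = P.A ∧ val P.X ℓ = v) := by
  rintro ⟨h1, h2⟩
  have h3 := (mem_below.1 h).2
  rw [keyZ_block h1 h2, mk4_lt] at h3
  omega

theorem above_not {v : ℕ} {ℓ : Line} (h : ℓ ∈ P.above v) : ¬ (ℓ.1 = P.A ∧ val P.X ℓ = v) := by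
  rintro ⟨h1, h2⟩
  have h3 := (mem_above.1 h).2
  rw [keyZ_block h1 h2] at h3
  have h4 : mk4 P.p 2 0 (if false = true then ℓ.2.1 else P.t - 1 - ℓ.2.1) < mk4 P.p 3 0 0 := by
    rw [mk4_lt]
    omega
  exact absurd h4 (not_lt.2 h3)

theorem phi_val {v j : ℕ} (hv : (P.t - 1) * P.X ≤ v) (hj : j < P.t) :
    val P.X (P.phi v j) = v := by
  unfold val phi
  have h1 : (P.t - 1 - j) * P.X ≤ (P.t - 1) * P.X := Nat.mul_le_mul_right _ (by omega)
  show (P.t - 1 - j) * P.X + (v - (P.t - 1 - j) * P.X) = v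
  omega

theorem keyZ_phi_false {v j : ℕ} (hv : (P.t - 1) * P.X ≤ v) (hj : j < P.t) :
    P.keyZ v false (P.phi v j) = mk4 P.p 2 0 j := by
  rw [keyZ_block (ℓ := P.phi v j) rfl (phi_val hv hj)]
  have : P.t - 1 - (P.t - 1 - j) = j := by omega
  simp [phi, this]

theorem keyZ_phi_true {v j : ℕ} (hv : (P.t - 1) * P.X ≤ v) (hj : j < P.t) :
    P.keyZ v true (P.phi v j) = mk4 P.p 2 0 (P.t - 1 - j) := by
  rw [keyZ_block (ℓ := P.phi v j) rfl (phi_val hv hj)]
  simp [phi]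

theorem phi_mem {v j : ℕ} (hv : (P.t - 1) * P.X ≤ v) (hvB : v < P.B) (hj : j < P.t) :
    (P.phi v j).1 = P.A ∧ (P.phi v j).2.1 < P.t ∧ (P.phi v j).2.2 < P.B ∧
      val P.X (P.phi v j) = v := by
  refine ⟨rfl, ?_, ?_, phi_val hv hj⟩
  · show P.t - 1 - j < P.t
    omega
  · show v - (P.t - 1 - j) * P.X < P.B
    omega

theorem eq_phi {v : ℕ} {ℓ : Line} (h1 : ℓ.1 = P.A) (h2 : ℓ.2.1 < P.t)
    (h4 : val P.X ℓ = v) : P.phi v (P.t - 1 - ℓ.2.1) = ℓ := by
  obtain ⟨C, m, b⟩ := ℓ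
  simp only at h1 h2
  unfold val at h4
  simp only at h4
  unfold phi
  have e1 : P.t - 1 - (P.t - 1 - m) = m := by omega
  rw [e1]
  have e2 : v - m * P.X = b := by omega
  rw [e2, h1]

theorem Good.pairwise_Zm (G : P.Good) {v : ℕ} (hv : (P.t - 1) * P.X ≤ v) :
    (P.Zm v).Pairwise fun a b => P.keyZ v false a < P.keyZ v false b := by
  unfold Zm
  rw [List.append_assoc, List.pairwise_append, List.pairwise_append]
  refine ⟨G.pairwise_below v, ⟨?_, G.pairwise_above v, ?_⟩, ?_⟩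
  · rw [List.pairwise_map]
    rw [List.pairwise_iff_getElem]
    intro i j hi hj hij
    simp only [List.length_range] at hi hj
    simp only [List.getElem_range]
    rw [keyZ_phi_false hv hi, keyZ_phi_false hv hj, mk4_lt]
    omega
  · intro a ha b hb
    obtain ⟨j, hj, rfl⟩ := List.mem_map.1 ha
    rw [List.mem_range] at hj
    rw [keyZ_phi_false hv hj]
    refine lt_of_lt_of_le ?_ (mem_above.1 hb).2
    rw [mk4_lt]
    omega
  · intro a ha b hb
    refine lt_of_lt_of_le (mem_below.1 ha).2 ?_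
    rcases List.mem_append.1 hb with hb | hb
    · obtain ⟨j, hj, rfl⟩ := List.mem_map.1 hb
      rw [List.mem_range] at hj
      rw [keyZ_phi_false hv hj]
      exact mk4_zero_le_aux
    · refine le_trans (le_of_lt ?_) (mem_above.1 hb).2
      rw [mk4_lt]
      omega

theorem Good.pairwise_Zp (G : P.Good) {v : ℕ} (hv : (P.t - 1) * P.X ≤ v) :
    (P.Zp v).Pairwise fun a b => P.keyZ v true a < P.keyZ v true b := by
  have hb1 : ∀ a ∈ P.below v, P.keyZ v true a = P.keyZ v false a :=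
    fun a ha => P.keyZ_indep (below_not ha)
  have hb2 : ∀ a ∈ P.above v, P.keyZ v true a = P.keyZ v false a :=
    fun a ha => P.keyZ_indep (above_not ha)
  unfold Zp
  rw [List.append_assoc, List.pairwise_append, List.pairwise_append]
  refine ⟨?_, ⟨?_, ?_, ?_⟩, ?_⟩
  · refine (G.pairwise_below v).imp_of_mem ?_
    intro a b ha hb h
    rwa [hb1 a ha, hb1 b hb]
  · rw [List.pairwise_map, List.pairwise_reverse]
    rw [List.pairwise_iff_getElem]
    intro i j hi hj hij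
    simp only [List.length_range] at hi hj
    simp only [List.getElem_range]
    rw [keyZ_phi_true hv hi, keyZ_phi_true hv hj, mk4_lt]
    omega
  · refine (G.pairwise_above v).imp_of_mem ?_
    intro a b ha hb h
    rwa [hb2 a ha, hb2 b hb]
  · intro a ha b hb
    obtain ⟨j, hj, rfl⟩ := List.mem_map.1 ha
    rw [List.mem_reverse, List.mem_range] at hj
    rw [keyZ_phi_true hv hj, hb2 b hb]
    refine lt_of_lt_of_le ?_ (mem_above.1 hb).2
    rw [mk4_lt]
    omega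
  · intro a ha b hb
    rw [hb1 a ha]
    refine lt_of_lt_of_le (mem_below.1 ha).2 ?_
    rcases List.mem_append.1 hb with hb | hb
    · obtain ⟨j, hj, rfl⟩ := List.mem_map.1 hb
      rw [List.mem_reverse, List.mem_range] at hj
      rw [keyZ_phi_true hv hj]
      exact mk4_zero_le_aux
    · rw [hb2 b hb]
      refine le_trans (le_of_lt ?_) (mem_above.1 hb).2
      rw [mk4_lt]
      omega

theorem Good.keyZ_split (G : P.Good) {v : ℕ} {ℓ : Line} (h : ¬ (ℓ.1 = P.A ∧ val P.X ℓ = v)) :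
    P.keyZ v false ℓ < mk4 P.p 2 0 0 ∨ mk4 P.p 3 0 0 ≤ P.keyZ v false ℓ := by
  by_cases h1 : ℓ.1 = P.A
  · have h2 : val P.X ℓ ≠ v := fun h3 => h ⟨h1, h3⟩
    rw [P.keyZ_A h1]
    unfold zA
    rw [if_neg' h2]
    split_ifs
    · left; rw [mk4_lt]; omega
    · right; exact mk4_le_aux (by omega)
  · by_cases h2 : ℓ.1 = P.Q
    · rw [P.keyZ_Q h2 G.Qne]
      unfold zQ
      split_ifs
      · left; rw [mk4_lt]; omega
      · right; exact mk4_le_aux (by omega)
    · rw [P.keyZ_O h1 h2]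
      have h3 := (G.hne _ h1 h2).1
      rcases lt_or_gt_of_ne h3 with h4 | h4
      · left; rw [mk4_lt]; omega
      · right; exact le_of_lt (by rw [mk4_lt]; omega)

theorem Good.hAn (G : P.Good) : P.A < P.n := lt_trans G.hAQ G.hQn

theorem Good.mem_Zm (G : P.Good) {v : ℕ} (hv : (P.t - 1) * P.X ≤ v) (hvB : v < P.B) (ℓ : Line) :
    ℓ ∈ P.Zm v ↔ ℓ ∈ allLines P.n P.t P.B := by
  unfold Zm
  simp only [List.append_assoc, List.mem_append, List.mem_map, List.mem_range]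
  constructor
  · rintro (h | ⟨j, hj, rfl⟩ | h)
    · exact (mem_below.1 h).1
    · obtain ⟨h1, h2, h3, -⟩ := phi_mem hv hvB hj
      rw [mem_allLines]
      exact ⟨by rw [h1]; exact G.hAn, h2, h3⟩
    · exact (mem_above.1 h).1
  · intro h
    by_cases h1 : ℓ.1 = P.A ∧ val P.X ℓ = v
    · have hm := (mem_allLines.1 h).2.1
      have := eq_phi h1.1 hm h1.2
      exact Or.inr (Or.inl ⟨_, by omega, this⟩)
    · rcases G.keyZ_split h1 with h2 | h2
      · exact Or.inl (mem_below.2 ⟨h, h2⟩)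
      · exact Or.inr (Or.inr (mem_above.2 ⟨h, h2⟩))

theorem Good.mem_Zp (G : P.Good) {v : ℕ} (hv : (P.t - 1) * P.X ≤ v) (hvB : v < P.B) (ℓ : Line) :
    ℓ ∈ P.Zp v ↔ ℓ ∈ allLines P.n P.t P.B := by
  unfold Zp
  simp only [List.append_assoc, List.mem_append, List.mem_map, List.mem_reverse, List.mem_range]
  constructor
  · rintro (h | ⟨j, hj, rfl⟩ | h)
    · exact (mem_below.1 h).1
    · obtain ⟨h1, h2, h3, -⟩ := phi_mem hv hvB hj
      rw [mem_allLines]
      exact ⟨by rw [h1]; exact G.hAn, h2, h3⟩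
    · exact (mem_above.1 h).1
  · intro h
    by_cases h1 : ℓ.1 = P.A ∧ val P.X ℓ = v
    · have hm := (mem_allLines.1 h).2.1
      have := eq_phi h1.1 hm h1.2
      exact Or.inr (Or.inl ⟨_, by omega, this⟩)
    · rcases G.keyZ_split h1 with h2 | h2
      · exact Or.inl (mem_below.2 ⟨h, h2⟩)
      · exact Or.inr (Or.inr (mem_above.2 ⟨h, h2⟩))

end ZP

end Vale.Agent.Lib.P065_helper23
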