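import Vale.Agent.Lib.P065_helper23.Zone

/-!
# P065 (pseudoline arrangements): counting, runs of the zone
-/

namespace Vale.Agent.Lib.P065_helper23

namespace ZP

variable {P : ZP}

theorem phi_inj {v j j' : ℕ} (hj : j < P.t) (hj' : j' < P.t) (h : P.phi v j = P.phi v j') : j = j' := by
  unfold phi at h
  have h1 : P.t - 1 - j = P.t - 1 - j' := by simpa using (Prod.ext_iff.1 (Prod.ext_iff.1 h).2).1
  omega

theorem Good.cnt_add (G : P.Good) {v : ℕ} (hv : (P.t - 1) * P.X ≤ v) (hvB : v < P.B) :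
    P.cnt v + P.t ≤ P.t * P.B := by
  have h0 := G.ht
  have hsub : ((linesOf P.t P.B P.A).filter fun ℓ => val P.X ℓ < v) ∪
      (Finset.range P.t).image (P.phi v) ⊆ linesOf P.t P.B P.A := by
    intro ℓ hℓ
    rw [Finset.mem_union, Finset.mem_filter, Finset.mem_image] at hℓ
    rcases hℓ with hℓ | ⟨j, hj, rfl⟩
    · exact hℓ.1
    · obtain ⟨h1, h2, h3, -⟩ := phi_mem hv hvB (Finset.mem_range.1 hj)
      rw [mem_linesOf]
      exact ⟨h1, h2, h3⟩
  have hdisj : Disjoint ((linesOf P.t P.B P.A).filter fun ℓ => val P.X ℓ < v)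
      ((Finset.range P.t).image (P.phi v)) := by
    rw [Finset.disjoint_left]
    intro ℓ h1 h2
    rw [Finset.mem_image] at h2
    obtain ⟨j, hj, rfl⟩ := h2
    rw [Finset.mem_filter, phi_val hv (Finset.mem_range.1 hj)] at h1
    omega
  have hc := Finset.card_le_card hsub
  rw [Finset.card_union_of_disjoint hdisj, card_linesOf, Finset.card_image_of_injOn, Finset.card_range] at hc
  · exact hc
  · intro a ha b hb h
    exact phi_inj (Finset.mem_range.1 ha) (Finset.mem_range.1 hb) h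

theorem card_take_filter {y : ℕ} (hy : y ≤ P.t * P.B) :
    ((linesOf P.t P.B P.Q).filter fun ℓ => P.bl.idxOf ℓ < y).card = y := by
  have h1 : ((linesOf P.t P.B P.Q).filter fun ℓ => P.bl.idxOf ℓ < y) = (P.bl.take y).toFinset := by
    ext ℓ
    rw [Finset.mem_filter, List.mem_toFinset, mem_take_iff_idx P.bl_nodup, mem_linesOf, P.bl_mem]
  rw [h1, List.toFinset_card_of_nodup (P.bl_nodup.sublist (List.take_sublist _ _)), List.length_take,
    P.bl_length]
  omega

theorem Good.card_low (G : P.Good) :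
    ((allLines P.n P.t P.B).filter fun ℓ => P.i ℓ.1 < P.p).card = P.p * (P.t * P.B) := by
  have h1 : ((allLines P.n P.t P.B).filter fun ℓ => P.i ℓ.1 < P.p) =
      ((Finset.range P.n).filter fun C => P.i C < P.p) ×ˢ (Finset.range P.t ×ˢ Finset.range P.B) := by
    ext ℓ
    obtain ⟨C, m, b⟩ := ℓ
    simp only [Finset.mem_filter, mem_allLines, Finset.mem_product, Finset.mem_range]
    tauto
  rw [h1, Finset.card_product, Finset.card_product, G.hlow, Finset.card_range, Finset.card_range]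

theorem Good.below_eq (G : P.Good) {v : ℕ} :
    ((allLines P.n P.t P.B).filter fun ℓ => P.keyZ v false ℓ < mk4 P.p 2 0 0) =
      (((allLines P.n P.t P.B).filter fun ℓ => P.i ℓ.1 < P.p) ∪
        ((linesOf P.t P.B P.A).filter fun ℓ => val P.X ℓ < v)) ∪
        ((linesOf P.t P.B P.Q).filter fun ℓ => P.bl.idxOf ℓ < P.yv v) := by
  ext ℓ
  simp only [Finset.mem_union, Finset.mem_filter, mem_allLines, mem_linesOf]
  have hiA := G.hiA
  have hiQ := G.hiQ
  have hAn := G.hAn
  have hQn := G.hQn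
  by_cases h1 : ℓ.1 = P.A
  · have h3 : ℓ.1 ≠ P.Q := by rw [h1]; exact G.Qne.symm
    rw [P.keyZ_A h1, h1, hiA]
    have h2 : zA P.p P.t v false (val P.X ℓ) ℓ.2.1 < mk4 P.p 2 0 0 ↔ val P.X ℓ < v := by
      unfold zA
      split_ifs <;> rw [mk4_lt] <;> omega
    rw [h2]
    have h4 : ¬ (P.A = P.Q) := G.Qne.symm
    simp [hAn, h4]
  · by_cases h2 : ℓ.1 = P.Q
    · rw [P.keyZ_Q h2 G.Qne, h2, hiQ]
      have h3 : zQ P.p (P.yv v) (P.bl.idxOf ℓ) < mk4 P.p 2 0 0 ↔ P.bl.idxOf ℓ < P.yv v := by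
        unfold zQ
        split_ifs <;> rw [mk4_lt] <;> omega
      rw [h3]
      have h4 : ¬ (P.Q = P.A) := G.Qne
      simp [hQn, h4]
    · rw [P.keyZ_O h1 h2]
      have h3 := (G.hne _ h1 h2).1
      have h4 : mk4 (P.i ℓ.1) 0 (val (P.x ℓ.1) ℓ) ℓ.2.1 < mk4 P.p 2 0 0 ↔ P.i ℓ.1 < P.p := by
        rw [mk4_lt]
        omega
      rw [h4]
      simp [h1, h2]

theorem Good.length_below (G : P.Good) {v : ℕ} (hv : (P.t - 1) * P.X ≤ v) (hvB : v < P.B) :
    (P.below v).length = P.p * (P.t * P.B) + P.cnt v + P.yv v := by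
  have hc := G.cnt_add hv hvB
  have ht := G.ht
  have hy : P.yv v ≤ P.t * P.B := by
    unfold yv
    omega
  unfold below
  rw [length_sortL, G.below_eq, Finset.card_union_of_disjoint, Finset.card_union_of_disjoint,
    G.card_low, card_take_filter hy]
  · rfl
  · rw [Finset.disjoint_left]
    intro ℓ h1 h2
    rw [Finset.mem_filter, mem_allLines] at h1
    rw [Finset.mem_filter, mem_linesOf] at h2
    have := h1.2
    rw [h2.1.1, G.hiA] at this
    omega
  · rw [Finset.disjoint_left]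
    intro ℓ h1 h2
    rw [Finset.mem_union, Finset.mem_filter, Finset.mem_filter, mem_allLines, mem_linesOf] at h1
    rw [Finset.mem_filter, mem_linesOf] at h2
    rcases h1 with h1 | h1
    · have := h1.2
      rw [h2.1.1, G.hiQ] at this
      omega
    · have := G.Qne
      have h3 := h1.1.1
      have h4 := h2.1.1
      omega

theorem Good.gap (G : P.Good) {v : ℕ} (hv : (P.t - 1) * P.X ≤ v) (hvB : v < P.B) :
    (P.below v).length + (P.t / 2 - 1) = P.n * (P.t * P.B) / 2 - 1 := by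
  rw [G.length_below hv hvB]
  have hc := G.cnt_add hv hvB
  have ht := G.ht
  obtain ⟨k, hk⟩ := G.hn
  have hp := G.hp
  have h1 : P.n * (P.t * P.B) / 2 = k * (P.t * P.B) := by
    rw [hk, show (k + k) * (P.t * P.B) = 2 * (k * (P.t * P.B)) by ring]
    exact Nat.mul_div_cancel_left _ (by norm_num)
  have h2 : k = P.p + 1 := by omega
  rw [h1, h2, show (P.p + 1) * (P.t * P.B) = P.p * (P.t * P.B) + P.t * P.B by ring]
  unfold yv
  have h3 : P.t / 2 ≤ P.t := Nat.div_le_self _ _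
  have h4 : 1 ≤ P.t / 2 := by omega
  omega

/-- The block is worked on by a copy of `W`. -/
theorem Good.lift_W (G : P.Good) {v : ℕ} (hv : (P.t - 1) * P.X ≤ v) (hvB : v < P.B)
    {msW : List (ℕ × ℕ)}
    (hW : Reach (· < ·) (P.t / 2 - 1) (List.range P.t) (List.range P.t).reverse msW) :
    Reach (rL P.t P.B) (P.n * (P.t * P.B) / 2 - 1) (P.Zm v) (P.Zp v)
      (msW.map (Prod.map (P.phi v) (P.phi v))) := by
  have := Reach.lift (r' := rL P.t P.B) (g' := P.n * (P.t * P.B) / 2 - 1) (P.phi v) hW ?_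
    (P.below v) (P.above v) (G.gap hv hvB)
  · simpa [Zm, Zp, List.append_assoc] using this
  · intro a ha b hb hab
    rw [List.mem_range] at ha hb
    obtain ⟨-, h2, h3, -⟩ := phi_mem hv hvB ha
    refine lab_lt_of_m h2 h3 rfl ?_
    show P.t - 1 - b < P.t - 1 - a
    omega

/-- Marks of a block. -/
theorem rc_block {v dW : ℕ} {msW : List (ℕ × ℕ)} (hmem : ∀ q ∈ msW, q.1 < P.t)
    (hdW : ∀ a, rc msW a ≤ dW) (hv : (P.t - 1) * P.X ≤ v) (ℓ : Line) :
    rc (msW.map (Prod.map (P.phi v) (P.phi v))) ℓ ≤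
      if ℓ.1 = P.A ∧ val P.X ℓ = v then dW else 0 := by
  unfold rc
  rw [List.countP_map]
  split_ifs with h
  · refine le_trans ?_ (hdW (P.t - 1 - ℓ.2.1))
    unfold rc
    refine List.countP_mono_left ?_
    intro q hq h1
    simp only [Function.comp, Prod.map, decide_eq_true_eq] at h1 ⊢
    have h2 := hmem q hq
    rw [← h1]
    show q.1 = P.t - 1 - (P.t - 1 - q.1)
    omega
  · rw [Nat.le_zero, List.countP_eq_zero]
    intro q hq h1
    simp only [Function.comp, Prod.map, decide_eq_true_eq] at h1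
    apply h
    rw [← h1]
    exact ⟨rfl, phi_val hv (hmem q hq)⟩

/-- A step between consecutive blocks. -/
theorem Good.step_run (G : P.Good) {v : ℕ} (hv : (P.t - 1) * P.X ≤ v) (hvB : v + 1 < P.B) {g : ℕ} :
    Reach (rL P.t P.B) g (P.Zp (v + 1)) (P.Zm v) [] := by
  have hv' : (P.t - 1) * P.X ≤ v + 1 := by omega
  have hvB' : v < P.B := by omega
  refine filler (P.keyZ (v + 1) true) (P.keyZ v false) (G.pairwise_Zp hv') (G.pairwise_Zm hv)
    (fun ℓ => by rw [G.mem_Zp hv' hvB, G.mem_Zm hv hvB']) ?_ ?_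
  · intro a ha b hb hne
    rw [G.mem_Zp hv' hvB] at ha hb
    exact rL_total ha hb hne
  · intro a ha b hb hr hk
    rw [G.mem_Zp hv' hvB, mem_allLines] at ha hb
    refine band_mono (P.banded G.Qne _ _) (P.banded G.Qne _ _) G.hne hk ?_
    intro ha' hb'
    unfold rL at hr
    rcases ha' with ha' | ha' <;> rcases hb' with hb' | hb'
    · rw [P.keyZ_A ha', P.keyZ_A hb'] at hk ⊢
      refine zA_step hb.2.1 ?_ hk
      rcases lab_cases ha.2.1 ha.2.2 hr with h | ⟨_, h⟩ | ⟨_, h, h'⟩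
      · omega
      · exact Or.inl h
      · refine Or.inr ⟨h.symm, ?_⟩
        unfold val
        rw [h]
        omega
    · exfalso
      have : lab P.t P.B a < lab P.t P.B b := lab_lt_of_C ha.2.1 ha.2.2 (by
        rw [ha', hb']; exact G.hAQ)
      omega
    · rw [P.keyZ_Q ha' G.Qne, P.keyZ_A hb'] at hk ⊢
      exact zQ_zA_step hk
    · rw [P.keyZ_Q ha' G.Qne, P.keyZ_Q hb' G.Qne] at hk ⊢
      rw [zQ_lt_iff] at hk ⊢
      exact hk

/-- The chain of blocks. -/
theorem Good.chain (G : P.Good) {msW : List (ℕ × ℕ)} {dW : ℕ}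
    (hW : Reach (· < ·) (P.t / 2 - 1) (List.range P.t) (List.range P.t).reverse msW)
    (hdW : ∀ a, rc msW a ≤ dW) (j : ℕ) (hj : (P.t - 1) * P.X + j < P.B) :
    ∃ ms, Reach (rL P.t P.B) (P.n * (P.t * P.B) / 2 - 1) (P.Zm ((P.t - 1) * P.X + j))
        (P.Zp ((P.t - 1) * P.X)) ms ∧ ms.length = (j + 1) * msW.length ∧
      ∀ ℓ : Line, rc ms ℓ ≤ if ℓ.1 = P.A ∧ val P.X ℓ ≤ (P.t - 1) * P.X + j then dW else 0 := by
  have hmem : ∀ q ∈ msW, q.1 < P.t := by
    intro q hq
    exact List.mem_range.1 (hW.mark_mem q hq).1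
  induction j with
  | zero =>
    refine ⟨_, G.lift_W (by omega) hj hW, by simp, ?_⟩
    intro ℓ
    refine le_trans (rc_block hmem hdW (by omega) ℓ) ?_
    split_ifs <;> omega
  | succ j ih =>
    obtain ⟨ms, h1, h2, h3⟩ := ih (by omega)
    have e : (P.t - 1) * P.X + (j + 1) = (P.t - 1) * P.X + j + 1 := rfl
    have h4 := G.lift_W (v := (P.t - 1) * P.X + (j + 1)) (by omega) hj hW
    have h5 : Reach (rL P.t P.B) (P.n * (P.t * P.B) / 2 - 1) (P.Zp ((P.t - 1) * P.X + (j + 1)))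
        (P.Zm ((P.t - 1) * P.X + j)) [] := G.step_run (v := (P.t - 1) * P.X + j) (by omega) hj
    refine ⟨_, h4.trans (h5.trans h1), ?_, ?_⟩
    · simp [h2]
      ring
    · intro ℓ
      rw [rc_append, rc_append, rc_nil]
      have h6 := rc_block (v := (P.t - 1) * P.X + (j + 1)) hmem hdW (by omega) ℓ
      have h7 := h3 ℓ
      split_ifs at h6 h7 ⊢ <;> first | omega | (exfalso; omega)

end ZP

end Vale.Agent.Lib.P065_helper23
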